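import Vale.Agent.H55.Sph.ImDefs
import Vale.Agent.H55.KB.Defs
import Vale.Agent.H19.Sph.Inv

/-!
Rotationally symmetric projective planes: the sphere `ds² + g(s)² dθ²`, `s ∈ [0, L]`, with
`g (L - s) = g s`, divided by the antipodal map `(s, θ) ↦ (L - s, θ + π)`.  Definitions shared
by the files in this folder.

Ansatz (weights `(1, 2)`): `Φ(s, θ) = (ρ₁ e^{i(θ + φ₁)}, ρ₂ e^{i(2θ + φ₂)})` with a SIGNED radius
`ρ₁ = g u`, `ρ₂ = (g/2) √(1 - u²)`, `u² < 1`, `u (L - s) = -u s` (so `u (L/2) = 0`), phases with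
`φᵢ (L - s) = φᵢ s`.  Then `Φ (L - s, θ + π) = Φ (s, θ)`.
-/

namespace Vale.Agent.H55.RP

open scoped ContDiff

/-- The deficit `1 - ρ₁'² - ρ₂'²` for `ρ₁ = g u`, `ρ₂ = (g/2) √(1 - u²)`, as a function of the
values `g, g', u, u'` at one point. -/
noncomputable def Du (g g' u u' : ℝ) : ℝ :=
  1 - g' ^ 2 * (1 + 3 * u ^ 2) / 4 - 3 / 2 * g * g' * u * u'
    - g ^ 2 * u' ^ 2 * (4 - 3 * u ^ 2) / (4 * (1 - u ^ 2))

theorem Du_neg (g g' u u' : ℝ) : Du g (-g') u (-u') = Du g g' u u' := by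
  unfold Du
  ring

theorem Du_neg' (g g' u u' : ℝ) : Du g (-g') (-u) u' = Du g g' u u' := by
  unfold Du
  ring

/-- Standing assumptions: the profile `g` of a smooth rotationally symmetric metric
`ds² + g(s)² dθ²` on the sphere which is invariant under `s ↦ L - s` (`g(s) = s h(s²)` near `0`,
`h(0) = 1`, `g (L - s) = g s`, `g > 0` on `(0, L)`), with negative curvature at the pole
(`h'(0) > 0`) and `|g'| < 2`. -/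
structure RPData (L ε : ℝ) (g h : ℝ → ℝ) : Prop where
  Lpos : 0 < L
  εpos : 0 < ε
  sg : ContDiff ℝ ∞ g
  sh : ContDiff ℝ ∞ h
  gN : ∀ s, |s| < ε → g s = s * h (s ^ 2)
  h0 : h 0 = 1
  sym : ∀ s, g (L - s) = g s
  gpos : ∀ s, 0 < s → s < L → 0 < g s
  KN : 0 < deriv h 0
  slope : ∀ s, 0 ≤ s → s ≤ L → |deriv g s| < 2

/-- A signed profile `u` on `(0, L)`, antisymmetric under `s ↦ L - s`, whose deficit is
`u² e²` with `e` smooth and antisymmetric, with a smooth germ at the pole: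
`1 - u² = s² ω(s²)` and deficit `= s⁶ Q(s²)` with `ω, Q` smooth and positive near `0`. -/
structure UProfile (L : ℝ) (g u e ωN QN : ℝ → ℝ) (η : ℝ) : Prop where
  ηpos : 0 < η
  su : ContDiffOn ℝ ∞ u (Set.Ioo 0 L)
  se : ContDiffOn ℝ ∞ e (Set.Ioo 0 L)
  u1 : ∀ s, 0 < s → s < L → u s ^ 2 < 1
  usym : ∀ s, 0 < s → s < L → u (L - s) = -u s
  esym : ∀ s, 0 < s → s < L → e (L - s) = -e s
  hD : ∀ s, 0 < s → s < L → Du (g s) (deriv g s) (u s) (deriv u s) = u s ^ 2 * e s ^ 2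
  sωN : ContDiffOn ℝ ∞ ωN (Set.Ioo (-η) η)
  sQN : ContDiffOn ℝ ∞ QN (Set.Ioo (-η) η)
  posN : ∀ t, |t| < η → 0 < ωN t ∧ 0 < QN t ∧ t * ωN t < 1
  uN : ∀ s, 0 < s → s ^ 2 < η → 0 < u s ∧ 0 < e s ∧ 1 - u s ^ 2 = s ^ 2 * ωN (s ^ 2)
  DN : ∀ s, 0 < s → s ^ 2 < η →
    Du (g s) (deriv g s) (u s) (deriv u s) = s ^ 6 * QN (s ^ 2)

/-- A smooth isometric immersion into `ℝ⁴` of the projective plane obtained from the sphere with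
metric `ds² + g(s)² dθ²`, `0 ≤ s ≤ L`, by the antipodal map `(s, θ) ↦ (L - s, θ + π)`: the
conditions of `Vale.Agent.H55.Sph.SphImm` together with `Φ (L - s, θ + π) = Φ (s, θ)`. -/
def RPImm (L : ℝ) (g : ℝ → ℝ) : Prop :=
  ∃ (Φ ΨN ΨS : ℝ × ℝ → EuclideanSpace ℝ (Fin 4)) (δ : ℝ), 0 < δ ∧
    ContDiffOn ℝ ∞ Φ (Set.Ioo 0 L ×ˢ Set.univ) ∧
    (∀ s θ : ℝ, Φ (s, θ + 2 * Real.pi) = Φ (s, θ)) ∧
    (∀ s θ : ℝ, 0 < s → s < L → Φ (L - s, θ + Real.pi) = Φ (s, θ)) ∧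
    (∀ p : ℝ × ℝ, 0 < p.1 → p.1 < L →
      inner ℝ (fderiv ℝ Φ p (1, 0)) (fderiv ℝ Φ p (1, 0)) = (1 : ℝ) ∧
      inner ℝ (fderiv ℝ Φ p (1, 0)) (fderiv ℝ Φ p (0, 1)) = (0 : ℝ) ∧
      inner ℝ (fderiv ℝ Φ p (0, 1)) (fderiv ℝ Φ p (0, 1)) = g p.1 ^ 2) ∧
    ContDiffOn ℝ ∞ ΨN {q : ℝ × ℝ | q.1 ^ 2 + q.2 ^ 2 < δ ^ 2} ∧
    ContDiffOn ℝ ∞ ΨS {q : ℝ × ℝ | q.1 ^ 2 + q.2 ^ 2 < δ ^ 2} ∧
    Sph.PoleIsom ΨN ∧ Sph.PoleIsom ΨS ∧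
    (∀ s θ : ℝ, 0 < s → s < δ → Φ (s, θ) = ΨN (s * Real.cos θ, s * Real.sin θ)) ∧
    (∀ s θ : ℝ, 0 < s → s < δ → Φ (L - s, θ) = ΨS (s * Real.cos θ, s * Real.sin θ))

/-- The prescribed derivative of the first phase. -/
noncomputable def rpP1 (g u e : ℝ → ℝ) (x : ℝ) : ℝ := -(√(1 - u x ^ 2) * e x) / g x

/-- The prescribed derivative of the second phase. -/
noncomputable def rpP2 (g u e : ℝ → ℝ) (x : ℝ) : ℝ :=
  2 * (u x ^ 2 * e x) / (√(1 - u x ^ 2) * g x)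

/-- `ρ₁ cos φ₁` with the signed radius `ρ₁ = g u`. -/
noncomputable def rpB1 (g u φ1 : ℝ → ℝ) (x : ℝ) : ℝ := g x * u x * Real.cos (φ1 x)

/-- `ρ₁ sin φ₁` with the signed radius `ρ₁ = g u`. -/
noncomputable def rpB2 (g u φ1 : ℝ → ℝ) (x : ℝ) : ℝ := g x * u x * Real.sin (φ1 x)

/-- `ρ₂ cos φ₂` with `ρ₂ = (g / 2) √(1 - u²)`. -/
noncomputable def rpD1 (g u φ2 : ℝ → ℝ) (x : ℝ) : ℝ :=
  g x / 2 * √(1 - u x ^ 2) * Real.cos (φ2 x)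

/-- `ρ₂ sin φ₂` with `ρ₂ = (g / 2) √(1 - u²)`. -/
noncomputable def rpD2 (g u φ2 : ℝ → ℝ) (x : ℝ) : ℝ :=
  g x / 2 * √(1 - u x ^ 2) * Real.sin (φ2 x)

/-- Standing assumptions for the zone around the middle circle, in the variable `x = L/2 - s`:
`γ` smooth, even, `m0 ≤ γ ≤ M0`, `|γ'| ≤ 1/2` on the whole line. -/
structure ZData (γ : ℝ → ℝ) (m0 M0 : ℝ) : Prop where
  sγ : ContDiff ℝ ∞ γ
  eγ : ∀ x, γ (-x) = γ x
  m0pos : 0 < m0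
  lo : ∀ x, m0 ≤ γ x
  hi : ∀ x, γ x ≤ M0
  dγ : ∀ x, |deriv γ x| ≤ 1 / 2

/-- `√(B² + A (1 - C))` for the coefficients `A, B, C` of `KB.Qform γ 1 2`. -/
noncomputable def rpR (γ : ℝ → ℝ) (x θ : ℝ) : ℝ :=
  √(KB.Bcoef γ 1 2 x θ ^ 2 + KB.Acoef γ 1 2 x θ * (1 - KB.Ccoef γ 1 2 x θ))

/-- The slope field: for `ζ = 1`, `ν = 0` it is the positive root `p` of `Qform = 1`
(zero deficit); for `ζ = 1`, `ν = 1` it is the minimiser `-B / A` of `Qform`. -/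
noncomputable def rpV (γ ζ ν : ℝ → ℝ) (x θ : ℝ) : ℝ :=
  ζ x * (-KB.Bcoef γ 1 2 x θ + (1 - ν x ^ 2) * rpR γ x θ) / KB.Acoef γ 1 2 x θ

/-- The positive factor of the deficit: deficit `= ν² * rpNt`. -/
noncomputable def rpNt (γ ν Θ : ℝ → ℝ) (x : ℝ) : ℝ :=
  (2 - ν x ^ 2) * (1 - deriv γ x ^ 2 / (1 + 3 * Real.cos (Θ x) ^ 2))

end Vale.Agent.H55.RP
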