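import Vale.Agent.H55.RP.Defs
import Vale.Agent.H55.KB.Cut

/-!
ROW RP-GLOB (replace the `sorry`, keep the statement exactly; helper lemmas: fresh names with stem
`rpg_` in this file).  A smooth even function with `γ 0 > 0` agrees near `0` with a function
satisfying the global bounds `ZData`.

Proof.  `deriv γ 0 = 0` (even: `deriv γ (-x) = -deriv γ x` by `deriv_comp_neg`).
Unit cut-off: `χ t = 1 - Real.smoothTransition (t ^ 2 - 1)` is smooth, even, `0 ≤ χ ≤ 1`,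
`χ t = 1` for `|t| ≤ 1`, `χ t = 0` for `√2 ≤ |t|` (in particular for `2 ≤ |t|`), and its
derivative is bounded, `|deriv χ t| ≤ K` (the derivative of `Real.smoothTransition` is continuous
and vanishes outside `Icc 0 1`: see `Vale.Agent.H55.Imm.exists_dst_bound`, `hasDerivAt_st`, `dst`
in `Vale/Agent/H55/Profile.lean`, used in `KB.exists_chi` of `Vale/Agent/H55/KB/Cut.lean`; for
`|t| ≤ 2` the chain rule gives `|deriv χ t| ≤ M * 2 * |t| ≤ 4 M`).
Let `δ' = min (1 / (2 * (2 * K + 1))) (γ 0 / 4)`.  By continuity of `deriv γ` at `0`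
(`deriv γ 0 = 0 < δ'`) choose `ρ₁ > 0` with `|deriv γ y| ≤ δ'` for `|y| ≤ 2 ρ₁`; put
`ρ = min ρ₁ 1`.
`γt x = γ 0 + χ (x / ρ) * (γ x - γ 0)`.
* smooth, even; `γt x = γ x` for `|x| < ρ` (`χ = 1`); `γt x = γ 0` for `2 ρ ≤ |x|`.
* for `|x| ≤ 2 ρ`: `|γ x - γ 0| ≤ δ' * |x| ≤ δ' * 2 ρ ≤ γ 0 / 2` (mean value inequality, `ρ ≤ 1`),
  so `|γt x - γ 0| ≤ |γ x - γ 0| ≤ γ 0 / 2` and `γ 0 / 2 ≤ γt x ≤ 2 * γ 0` (for `2 ρ ≤ |x|`,
  `γt x = γ 0`).
* `deriv γt x = deriv χ (x / ρ) / ρ * (γ x - γ 0) + χ (x / ρ) * deriv γ x`; for `|x| ≤ 2 ρ` its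
  absolute value is `≤ (K / ρ) * (δ' * 2 ρ) + δ' = (2 K + 1) δ' ≤ 1/2`; for `2 ρ < |x|` the
  function `γt` is locally constant, so `deriv γt x = 0` (or: the formula gives `0` since `χ`
  and `deriv χ` vanish there).
-/

namespace Vale.Agent.H55.RP

open scoped ContDiff

/-- The unit cut-off `χ t = 1 - Real.smoothTransition (t ^ 2 - 1)`. -/
noncomputable def rpg_chi (t : ℝ) : ℝ := 1 - Real.smoothTransition (t ^ 2 - 1)

theorem rpg_chi_smooth : ContDiff ℝ ∞ rpg_chi := by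
  show ContDiff ℝ ∞ (fun t : ℝ => 1 - Real.smoothTransition (t ^ 2 - 1))
  exact contDiff_const.sub (Real.smoothTransition.contDiff.comp (by fun_prop))

theorem rpg_chi_even (t : ℝ) : rpg_chi (-t) = rpg_chi t := by
  unfold rpg_chi
  rw [neg_sq]

theorem rpg_chi_nonneg (t : ℝ) : 0 ≤ rpg_chi t := by
  unfold rpg_chi
  linarith [Real.smoothTransition.le_one (t ^ 2 - 1)]

theorem rpg_chi_le_one (t : ℝ) : rpg_chi t ≤ 1 := by
  unfold rpg_chi
  linarith [Real.smoothTransition.nonneg (t ^ 2 - 1)]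

theorem rpg_chi_one {t : ℝ} (ht : |t| ≤ 1) : rpg_chi t = 1 := by
  unfold rpg_chi
  have h1 : t ^ 2 ≤ 1 := by
    rw [← sq_abs]
    nlinarith [abs_nonneg t]
  rw [Real.smoothTransition.zero_of_nonpos (by linarith)]
  ring

theorem rpg_sq_ge {t : ℝ} (ht : 2 ≤ |t|) : 4 ≤ t ^ 2 := by
  rw [← sq_abs]
  nlinarith [abs_nonneg t]

theorem rpg_chi_zero {t : ℝ} (ht : 2 ≤ |t|) : rpg_chi t = 0 := by
  unfold rpg_chi
  have h1 := rpg_sq_ge ht
  rw [Real.smoothTransition.one_of_one_le (by linarith)]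
  ring

theorem rpg_chi_hasDerivAt (t : ℝ) :
    HasDerivAt rpg_chi (-(Vale.Agent.H55.Imm.dst (t ^ 2 - 1) * (2 * t))) t := by
  have hin : HasDerivAt (fun t : ℝ => t ^ 2 - 1) (2 * t) t := by
    have := (hasDerivAt_pow 2 t).sub_const 1
    simpa using this
  have h1 : HasDerivAt (Real.smoothTransition ∘ fun t : ℝ => t ^ 2 - 1)
      (Vale.Agent.H55.Imm.dst (t ^ 2 - 1) * (2 * t)) t :=
    HasDerivAt.comp t (Vale.Agent.H55.Imm.hasDerivAt_st (t ^ 2 - 1)) hin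
  exact h1.const_sub 1

theorem rpg_chi_deriv_bound {M : ℝ} (hM : ∀ t, |Vale.Agent.H55.Imm.dst t| ≤ M) (t : ℝ) :
    |Vale.Agent.H55.Imm.dst (t ^ 2 - 1) * (2 * t)| ≤ 4 * M := by
  have hM0 : 0 ≤ M := le_trans (abs_nonneg _) (hM 0)
  by_cases ht : |t| ≤ 2
  · rw [abs_mul, abs_mul]
    have h1 := hM (t ^ 2 - 1)
    have h2 : |(2 : ℝ)| = 2 := abs_of_pos (by norm_num)
    rw [h2]
    nlinarith [abs_nonneg t, abs_nonneg (Vale.Agent.H55.Imm.dst (t ^ 2 - 1)),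
      mul_nonneg (sub_nonneg.2 h1) (abs_nonneg t), mul_nonneg hM0 (sub_nonneg.2 ht)]
  · push Not at ht
    have h1 := rpg_sq_ge ht.le
    rw [Vale.Agent.H55.Imm.dst_of_one_le (by linarith), zero_mul, abs_zero]
    linarith

/-- The globalised function. -/
noncomputable def rpg_gt (γ : ℝ → ℝ) (ρ : ℝ) (x : ℝ) : ℝ :=
  γ 0 + rpg_chi (x / ρ) * (γ x - γ 0)

theorem rp_globalize (γ : ℝ → ℝ) (sγ : ContDiff ℝ ∞ γ) (eγ : ∀ x, γ (-x) = γ x)
    (h0 : 0 < γ 0) :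
    ∃ (γt : ℝ → ℝ) (ρ : ℝ), 0 < ρ ∧ ZData γt (γ 0 / 2) (2 * γ 0) ∧
      ∀ x, |x| < ρ → γt x = γ x := by
  obtain ⟨M, hM0, hM⟩ := Vale.Agent.H55.Imm.exists_dst_bound
  obtain ⟨δ', hδ'⟩ : ∃ δ' : ℝ, δ' = min (1 / (2 * (2 * (4 * M) + 1))) (γ 0 / 4) := ⟨_, rfl⟩
  have hδpos : 0 < δ' := by
    rw [hδ']
    exact lt_min (by positivity) (by positivity)
  have hδ1 : δ' ≤ 1 / (2 * (2 * (4 * M) + 1)) := hδ' ▸ min_le_left _ _
  have hδ2 : δ' ≤ γ 0 / 4 := hδ' ▸ min_le_right _ _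
  have hdiff : Differentiable ℝ γ := sγ.differentiable (by simp)
  have hd0 : deriv γ 0 = 0 := by
    have h1 : (fun x => γ (-x)) = γ := funext eγ
    have h2 := deriv_comp_neg γ (0 : ℝ)
    rw [h1, neg_zero] at h2
    linarith
  have hdc : Continuous (deriv γ) := sγ.continuous_deriv (by simp)
  obtain ⟨d, hd, hdδ⟩ := Metric.continuousAt_iff.mp (hdc.continuousAt (x := 0)) δ' hδpos
  obtain ⟨ρ, hρ⟩ : ∃ ρ : ℝ, ρ = min (d / 4) 1 := ⟨_, rfl⟩
  have hρpos : 0 < ρ := by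
    rw [hρ]
    exact lt_min (by positivity) one_pos
  have hρ1 : ρ ≤ 1 := hρ ▸ min_le_right _ _
  have hρd : ρ ≤ d / 4 := hρ ▸ min_le_left _ _
  have hder : ∀ y, |y| ≤ 2 * ρ → |deriv γ y| ≤ δ' := by
    intro y hy
    have h1 : dist y 0 < d := by
      rw [Real.dist_eq, sub_zero]
      linarith
    have h2 := hdδ h1
    rw [Real.dist_eq, hd0, sub_zero] at h2
    exact h2.le
  have hmv : ∀ x, |x| ≤ 2 * ρ → |γ x - γ 0| ≤ δ' * (2 * ρ) := by
    intro x hx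
    have hconv : Convex ℝ (Set.Icc (-(2 * ρ)) (2 * ρ)) := convex_Icc _ _
    have h := hconv.norm_image_sub_le_of_norm_deriv_le (f := γ) (C := δ') (x := 0) (y := x)
      (fun y _ => hdiff.differentiableAt)
      (fun y hy => by
        rw [Real.norm_eq_abs]
        exact hder y (abs_le.mpr hy))
      (Set.mem_Icc.mpr ⟨by linarith, by linarith⟩) (Set.mem_Icc.mpr (abs_le.mp hx))
    rw [Real.norm_eq_abs, Real.norm_eq_abs, sub_zero] at h
    exact h.trans (mul_le_mul_of_nonneg_left hx hδpos.le)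
  have hfar : ∀ x, 2 * ρ ≤ |x| → 2 ≤ |x / ρ| := by
    intro x hx
    rw [abs_div, abs_of_pos hρpos, le_div_iff₀ hρpos]
    exact hx
  have hγt_far : ∀ x, 2 * ρ ≤ |x| → rpg_gt γ ρ x = γ 0 := by
    intro x hx
    unfold rpg_gt
    rw [rpg_chi_zero (hfar x hx)]
    ring
  have hγt_near : ∀ x, |x| ≤ 2 * ρ → |rpg_gt γ ρ x - γ 0| ≤ γ 0 / 2 := by
    intro x hx
    have h1 : rpg_gt γ ρ x - γ 0 = rpg_chi (x / ρ) * (γ x - γ 0) := by
      unfold rpg_gt
      ring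
    rw [h1, abs_mul, abs_of_nonneg (rpg_chi_nonneg _)]
    have h2 := hmv x hx
    have h3 : δ' * (2 * ρ) ≤ γ 0 / 2 := by
      nlinarith [mul_le_mul_of_nonneg_left hρ1 hδpos.le]
    calc rpg_chi (x / ρ) * |γ x - γ 0| ≤ 1 * |γ x - γ 0| :=
          mul_le_mul_of_nonneg_right (rpg_chi_le_one _) (abs_nonneg _)
      _ ≤ γ 0 / 2 := by linarith
  have hderivγt : ∀ x, HasDerivAt (rpg_gt γ ρ)
      (-(Vale.Agent.H55.Imm.dst ((x / ρ) ^ 2 - 1) * (2 * (x / ρ))) * (1 / ρ) * (γ x - γ 0)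
        + rpg_chi (x / ρ) * deriv γ x) x := by
    intro x
    have hin : HasDerivAt (fun x : ℝ => x / ρ) (1 / ρ) x := by
      simpa using (hasDerivAt_id x).div_const ρ
    have hχ : HasDerivAt (rpg_chi ∘ fun x : ℝ => x / ρ)
        (-(Vale.Agent.H55.Imm.dst ((x / ρ) ^ 2 - 1) * (2 * (x / ρ))) * (1 / ρ)) x :=
      HasDerivAt.comp x (rpg_chi_hasDerivAt (x / ρ)) hin
    have hγ : HasDerivAt (fun x : ℝ => γ x - γ 0) (deriv γ x) x :=
      (hdiff.differentiableAt.hasDerivAt).sub_const (γ 0)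
    exact (hχ.mul hγ).const_add (γ 0)
  have hdγt : ∀ x, |deriv (rpg_gt γ ρ) x| ≤ 1 / 2 := by
    intro x
    rw [(hderivγt x).deriv]
    by_cases hx : |x| ≤ 2 * ρ
    · have hK := rpg_chi_deriv_bound hM (x / ρ)
      have h1 := hmv x hx
      have h2 := hder x hx
      have h3 : |-(Vale.Agent.H55.Imm.dst ((x / ρ) ^ 2 - 1) * (2 * (x / ρ))) * (1 / ρ)
          * (γ x - γ 0)| ≤ 4 * M * (1 / ρ) * (δ' * (2 * ρ)) := by
        rw [abs_mul, abs_mul, abs_neg, abs_of_pos (one_div_pos.mpr hρpos)]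
        exact mul_le_mul (mul_le_mul_of_nonneg_right hK (one_div_pos.mpr hρpos).le) h1
          (abs_nonneg _) (by positivity)
      have h4 : 4 * M * (1 / ρ) * (δ' * (2 * ρ)) = 2 * (4 * M) * δ' := by
        field_simp
      have h5 : |rpg_chi (x / ρ) * deriv γ x| ≤ δ' := by
        rw [abs_mul, abs_of_nonneg (rpg_chi_nonneg _)]
        calc rpg_chi (x / ρ) * |deriv γ x| ≤ 1 * δ' :=
              mul_le_mul (rpg_chi_le_one _) h2 (abs_nonneg _) zero_le_one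
          _ = δ' := one_mul _
      have h6 : (2 * (4 * M) + 1) * δ' ≤ 1 / 2 := by
        have hpos : 0 < 2 * (4 * M) + 1 := by positivity
        calc (2 * (4 * M) + 1) * δ' ≤ (2 * (4 * M) + 1) * (1 / (2 * (2 * (4 * M) + 1))) :=
              mul_le_mul_of_nonneg_left hδ1 hpos.le
          _ = 1 / 2 := by field_simp
      have h7 := abs_add_le
        (-(Vale.Agent.H55.Imm.dst ((x / ρ) ^ 2 - 1) * (2 * (x / ρ))) * (1 / ρ) * (γ x - γ 0))
        (rpg_chi (x / ρ) * deriv γ x)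
      linarith
    · push Not at hx
      have h1 := hfar x hx.le
      have h2 := rpg_sq_ge h1
      rw [Vale.Agent.H55.Imm.dst_of_one_le (by linarith), rpg_chi_zero h1]
      norm_num
  have hsm : ContDiff ℝ ∞ (rpg_gt γ ρ) := by
    show ContDiff ℝ ∞ (fun x => γ 0 + rpg_chi (x / ρ) * (γ x - γ 0))
    exact contDiff_const.add
      ((rpg_chi_smooth.comp (contDiff_id.div_const ρ)).mul (sγ.sub contDiff_const))
  have hev : ∀ x, rpg_gt γ ρ (-x) = rpg_gt γ ρ x := by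
    intro x
    unfold rpg_gt
    rw [neg_div, rpg_chi_even, eγ]
  have hlohi : ∀ x, γ 0 / 2 ≤ rpg_gt γ ρ x ∧ rpg_gt γ ρ x ≤ 2 * γ 0 := by
    intro x
    by_cases hx : |x| ≤ 2 * ρ
    · have h := abs_le.mp (hγt_near x hx)
      constructor <;> linarith [h.1, h.2]
    · push Not at hx
      rw [hγt_far x hx.le]
      constructor <;> linarith
  refine ⟨rpg_gt γ ρ, ρ, hρpos,
    ⟨hsm, hev, by positivity, fun x => (hlohi x).1, fun x => (hlohi x).2, hdγt⟩, ?_⟩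
  intro x hx
  have h1 : |x / ρ| ≤ 1 := by
    rw [abs_div, abs_of_pos hρpos, div_le_one hρpos]
    exact hx.le
  unfold rpg_gt
  rw [rpg_chi_one h1]
  ring

end Vale.Agent.H55.RP
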