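import Mathlib

/-!
ROW RP-GLUE3 (replace the `sorry`, keep the statement exactly; helper lemmas: fresh names with
stem `rpg3_` in this file).  Gluing a function `fA` on the left half `(0, L/2)` with an odd
function `fM` of `x = L/2 - s` around the middle, antisymmetrically under `s ↦ L - s`.

Take `c = L / 2`, `m = (a + b) / 2` (`a < m < b`) and
  `f s = if s ≤ c - m then fA s else if s < c + m then fM (c - s) else -fA (L - s)`.
* For `y < c - a`: `f y = fA y` (if `y ≤ c - m` by definition; if `c - m < y < c - a` then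
  `f y = fM (c - y) = fA y` by `hov`).  So `f =ᶠ[nhds s] fA` for `s < c - a` (the set
  `Set.Iio (c - a)` is a neighbourhood of `s`).
* For `c - b < y < c + b`: `f y = fM (c - y)` (if `y ≤ c - m`: `hov`; if `c + m ≤ y`:
  `f y = -fA (L - y)` with `c - b < L - y ≤ c - m < c - a`, so
  `fA (L - y) = fM (c - (L - y)) = fM (-(c - y)) = -fM (c - y)`).
* For `c + a < y`: `f y = -fA (L - y)` (if `y < c + m` then `c - m < L - y < c - a` and
  `fA (L - y) = fM (c - (L - y)) = -fM (c - y)`).
* Antisymmetry for `0 < s < L`: cases `s ≤ c - m` (then `c + m ≤ L - s`), `c - m < s < c + m`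
  (then `L - s` is in the same range, `fM (c - (L - s)) = fM (-(c - s)) = -fM (c - s)`),
  `c + m ≤ s` (then `L - s ≤ c - m`, `L - (L - s) = s`).
* Smoothness on `Ioo 0 L`: at `s < c - a` locally equal to `fA` (smooth at `s ∈ Ioo 0 c`, an open
  set: `ContDiffOn.contDiffAt` with `Ioo_mem_nhds`, then `ContDiffAt.congr_of_eventuallyEq`); at
  `c - b < s < c + b` locally equal to `fun y => fM (c - y)`; at `c + a < s < L` locally equal to
  `fun y => -fA (L - y)` (`L - s ∈ Ioo 0 c`).  These three cases cover `Ioo 0 L` since `a < b`.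
  Conclude with `ContDiffAt.contDiffWithinAt`.
-/

namespace Vale.Agent.H55.RP

open scoped ContDiff

theorem rp_glue3 (L a b : ℝ) (ha : 0 < a) (hab : a < b) (hb : b < L / 2) (fA fM : ℝ → ℝ)
    (sA : ContDiffOn ℝ ∞ fA (Set.Ioo 0 (L / 2))) (sM : ContDiff ℝ ∞ fM)
    (oM : ∀ x, fM (-x) = -fM x)
    (hov : ∀ s, L / 2 - b < s → s < L / 2 - a → fA s = fM (L / 2 - s)) :
    ∃ f : ℝ → ℝ, ContDiffOn ℝ ∞ f (Set.Ioo 0 L) ∧
      (∀ s, 0 < s → s < L → f (L - s) = -f s) ∧
      (∀ s, s < L / 2 - a → f =ᶠ[nhds s] fA) ∧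
      (∀ s, L / 2 - b < s → s < L / 2 + b → f =ᶠ[nhds s] fun y => fM (L / 2 - y)) := by
  have hcL : ∀ y : ℝ, L / 2 - (L - y) = -(L / 2 - y) := fun y => by ring
  have hma : a < (a + b) / 2 := by linarith
  have hmb : (a + b) / 2 < b := by linarith
  obtain ⟨m, hma, hmb⟩ : ∃ m : ℝ, a < m ∧ m < b := ⟨(a + b) / 2, hma, hmb⟩
  obtain ⟨c, hc⟩ : ∃ c : ℝ, c = L / 2 := ⟨L / 2, rfl⟩
  rw [← hc] at hb sA hov hcL
  rw [← hc]
  have hLc : L = 2 * c := by rw [hc]; ring
  let f : ℝ → ℝ := fun s =>
    if s ≤ c - m then fA s else if s < c + m then fM (c - s) else -fA (L - s)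
  have hf : ∀ s, f s =
      if s ≤ c - m then fA s else if s < c + m then fM (c - s) else -fA (L - s) := fun s => rfl
  have F1 : ∀ y, y < c - a → f y = fA y := by
    intro y hy
    rw [hf]
    by_cases h1 : y ≤ c - m
    · rw [if_pos h1]
    · have h2 : y < c + m := by linarith
      rw [if_neg h1, if_pos h2]
      exact (hov y (by linarith [not_le.mp h1]) hy).symm
  have F2 : ∀ y, c - b < y → y < c + b → f y = fM (c - y) := by
    intro y hy1 hy2
    rw [hf]
    by_cases h1 : y ≤ c - m
    · rw [if_pos h1]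
      exact hov y hy1 (by linarith)
    · by_cases h2 : y < c + m
      · rw [if_neg h1, if_pos h2]
      · rw [if_neg h1, if_neg h2]
        have h3 := hov (L - y) (by linarith) (by linarith [not_lt.mp h2])
        rw [h3, hcL, oM]
        ring
  have F3 : ∀ y, c + a < y → f y = -fA (L - y) := by
    intro y hy
    rw [hf]
    have h1 : ¬ y ≤ c - m := by
      intro h
      linarith
    by_cases h2 : y < c + m
    · rw [if_neg h1, if_pos h2]
      have h3 := hov (L - y) (by linarith) (by linarith)
      rw [h3, hcL, oM]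
      ring
    · rw [if_neg h1, if_neg h2]
  have E1 : ∀ s, s < c - a → f =ᶠ[nhds s] fA := by
    intro s hs
    filter_upwards [Iio_mem_nhds hs] with y hy
    exact F1 y hy
  have E2 : ∀ s, c - b < s → s < c + b → f =ᶠ[nhds s] fun y => fM (c - y) := by
    intro s hs1 hs2
    filter_upwards [Ioo_mem_nhds hs1 hs2] with y hy
    exact F2 y hy.1 hy.2
  have E3 : ∀ s, c + a < s → f =ᶠ[nhds s] fun y => -fA (L - y) := by
    intro s hs
    filter_upwards [Ioi_mem_nhds hs] with y hy
    exact F3 y hy
  refine ⟨f, ?_, ?_, E1, E2⟩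
  · intro s hs
    apply ContDiffAt.contDiffWithinAt
    by_cases h1 : s < c - a
    · have hA : ContDiffAt ℝ ∞ fA s :=
        sA.contDiffAt (Ioo_mem_nhds hs.1 (by linarith))
      exact hA.congr_of_eventuallyEq (E1 s h1)
    · by_cases h2 : s < c + b
      · have hM : ContDiffAt ℝ ∞ (fun y : ℝ => fM (c - y)) s :=
          (sM.comp (contDiff_const.sub contDiff_id)).contDiffAt
        exact hM.congr_of_eventuallyEq (E2 s (by linarith [not_lt.mp h1]) h2)
      · have h3 : c + a < s := by linarith [not_lt.mp h2]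
        have hA : ContDiffAt ℝ ∞ fA (L - s) :=
          sA.contDiffAt (Ioo_mem_nhds (by linarith [hs.2]) (by linarith))
        have hg : ContDiffAt ℝ ∞ (fun y : ℝ => L - y) s :=
          (contDiff_const.sub contDiff_id).contDiffAt
        have hA2 : ContDiffAt ℝ ∞ (fun y : ℝ => -fA (L - y)) s :=
          (hA.comp s hg).neg
        exact hA2.congr_of_eventuallyEq (E3 s h3)
  · intro s hs0 hsL
    rw [hf s, hf (L - s)]
    by_cases h1 : s ≤ c - m
    · have h2 : ¬ (L - s ≤ c - m) := by
        intro h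
        linarith
      have h3 : ¬ (L - s < c + m) := by
        intro h
        linarith
      rw [if_pos h1, if_neg h2, if_neg h3]
      have : L - (L - s) = s := by ring
      rw [this]
    · by_cases h2 : s < c + m
      · have h3 : ¬ (L - s ≤ c - m) := by
          intro h
          linarith
        have h4 : L - s < c + m := by linarith [not_le.mp h1]
        rw [if_neg h1, if_pos h2, if_neg h3, if_pos h4, hcL, oM]
      · have h3 : L - s ≤ c - m := by linarith [not_lt.mp h2]
        rw [if_neg h1, if_neg h2, if_pos h3]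
        ring

end Vale.Agent.H55.RP
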