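import Vale.Agent.H55.RP.Defs

/-!
ROW RP-HALF-U (both statements proved, kept exactly; no helper lemmas needed).
From a profile `w` (`0 < w < 1`, positive defect `Dex`) on `(0, c)` to the signed-radius
variables `uA = √(1 - w)`, `eA = √Dex / uA`.

* `rp_Du_of_w`: with `v = √(1 - w) > 0`, `v² = 1 - w` (`Real.sq_sqrt`): unfold `Du`,
  `Vale.Agent.H19.Sph.Dex`; `1 - v² = w`; `field_simp`, then `ring` (eliminate `v²`, e.g. first
  rewrite `(-wp / (2 * v)) ^ 2 = wp ^ 2 / (4 * (1 - w))` and `v * (-wp / (2 * v)) = -wp / 2`).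
* `rp_half_u`: `uA = fun s => √(1 - w s)`,
  `eA = fun s => √(Dex (g s) (deriv g s) (w s) (deriv w s)) / √(1 - w s)`.
  Smooth on `Ioo 0 c`: `deriv w` is `ContDiffOn` there (`contDiffOn_infty_iff_deriv_of_isOpen`,
  as in `Vale/Agent/H55/Sph/ImSmooth.lean`: `ims_deriv_w`, `im_contDiffOn_D`), `Dex` is a
  rational expression with denominator `16 * w * (1 - w) ≠ 0`, `ContDiffOn.sqrt` (radicands
  `≠ 0`), `ContDiffOn.div`.  At `s ∈ Ioo 0 c`: `w` is differentiable at `s`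
  (`ContDiffOn.contDiffAt` with `Ioo_mem_nhds`), so `uA` has derivative
  `-deriv w s / (2 * √(1 - w s))` (`HasDerivAt.sqrt`); then `rp_Du_of_w` gives the last identity,
  and `uA² eA² = Dex` (`Real.sq_sqrt`, `div_pow`, cancel).
-/

namespace Vale.Agent.H55.RP

open scoped ContDiff

theorem rp_Du_of_w (gv gp w wp : ℝ) (hw0 : 0 < w) (hw1 : w < 1) :
    Du gv gp (√(1 - w)) (-wp / (2 * √(1 - w))) = Vale.Agent.H19.Sph.Dex gv gp w wp := by
  have h1 : 0 < 1 - w := by linarith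
  have hv : 0 < √(1 - w) := Real.sqrt_pos.mpr h1
  have hv2 : √(1 - w) ^ 2 = 1 - w := Real.sq_sqrt h1.le
  have hv0 : √(1 - w) ≠ 0 := hv.ne'
  have hw0' : w ≠ 0 := hw0.ne'
  have h1' : (1 - w) ≠ 0 := h1.ne'
  have e1 : (-wp / (2 * √(1 - w))) ^ 2 = wp ^ 2 / (4 * (1 - w)) := by
    rw [div_pow, mul_pow, hv2]
    ring
  have e2 : 3 / 2 * gv * gp * √(1 - w) * (-wp / (2 * √(1 - w))) = -(3 / 4 * gv * gp * wp) := by
    field_simp
    ring
  have e4 : 1 - (1 - w) = w := by ring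
  unfold Du Vale.Agent.H19.Sph.Dex
  rw [e2, e1, hv2, e4]
  field_simp
  ring

theorem rp_half_u (g w : ℝ → ℝ) (c : ℝ) (sg : ContDiff ℝ ∞ g)
    (sw : ContDiffOn ℝ ∞ w (Set.Ioo 0 c))
    (hw : ∀ s ∈ Set.Ioo 0 c, 0 < w s ∧ w s < 1 ∧
      0 < Vale.Agent.H19.Sph.Dex (g s) (deriv g s) (w s) (deriv w s)) :
    ∃ uA eA : ℝ → ℝ, ContDiffOn ℝ ∞ uA (Set.Ioo 0 c) ∧ ContDiffOn ℝ ∞ eA (Set.Ioo 0 c) ∧
      ∀ s ∈ Set.Ioo 0 c, 0 < uA s ∧ uA s < 1 ∧ 0 < eA s ∧ uA s = √(1 - w s) ∧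
        Du (g s) (deriv g s) (uA s) (deriv uA s) = uA s ^ 2 * eA s ^ 2 ∧
        Du (g s) (deriv g s) (uA s) (deriv uA s)
          = Vale.Agent.H19.Sph.Dex (g s) (deriv g s) (w s) (deriv w s) := by
  have hw' : ContDiffOn ℝ ∞ (deriv w) (Set.Ioo 0 c) :=
    ((contDiffOn_infty_iff_deriv_of_isOpen isOpen_Ioo).mp sw).2
  have hg' : ContDiff ℝ ∞ (deriv g) := (contDiff_infty_iff_deriv.mp sg).2
  have hgs := sg.contDiffOn (s := Set.Ioo 0 c)
  have hg's := hg'.contDiffOn (s := Set.Ioo 0 c)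
  have hD : ContDiffOn ℝ ∞
      (fun s => Vale.Agent.H19.Sph.Dex (g s) (deriv g s) (w s) (deriv w s)) (Set.Ioo 0 c) := by
    unfold Vale.Agent.H19.Sph.Dex
    refine ContDiffOn.sub (ContDiffOn.add (ContDiffOn.sub contDiffOn_const ?_) ?_) ?_
    · exact (hg's.pow 2).mul (contDiffOn_const.sub ((contDiffOn_const.mul sw).div_const 4))
    · exact ((contDiffOn_const.mul hgs).mul hg's).mul hw'
    · refine ContDiffOn.div (((hgs.pow 2).mul (hw'.pow 2)).mul
        (contDiffOn_const.add (contDiffOn_const.mul sw)))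
        ((contDiffOn_const.mul sw).mul (contDiffOn_const.sub sw)) ?_
      intro s hs
      have := hw s hs
      have h1 : 0 < 16 * w s * (1 - w s) := by nlinarith [this.1, this.2.1]
      exact h1.ne'
  have hu : ContDiffOn ℝ ∞ (fun s => √(1 - w s)) (Set.Ioo 0 c) :=
    (contDiffOn_const.sub sw).sqrt (fun s hs => by
      have := (hw s hs).2.1
      linarith)
  have he : ContDiffOn ℝ ∞
      (fun s => √(Vale.Agent.H19.Sph.Dex (g s) (deriv g s) (w s) (deriv w s)) / √(1 - w s))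
      (Set.Ioo 0 c) := by
    refine ContDiffOn.div (hD.sqrt (fun s hs => (hw s hs).2.2.ne')) hu ?_
    intro s hs
    have := (hw s hs).2.1
    exact (Real.sqrt_pos.mpr (by linarith)).ne'
  refine ⟨fun s => √(1 - w s),
    fun s => √(Vale.Agent.H19.Sph.Dex (g s) (deriv g s) (w s) (deriv w s)) / √(1 - w s),
    hu, he, ?_⟩
  intro s hs
  obtain ⟨hw0, hw1, hDpos⟩ := hw s hs
  have h1 : 0 < 1 - w s := by linarith
  have hv : 0 < √(1 - w s) := Real.sqrt_pos.mpr h1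
  have hv2 : √(1 - w s) ^ 2 = 1 - w s := Real.sq_sqrt h1.le
  have hvlt : √(1 - w s) < 1 := by
    rw [Real.sqrt_lt' one_pos]
    linarith
  have hwd : DifferentiableAt ℝ w s :=
    (sw.contDiffAt (Ioo_mem_nhds hs.1 hs.2)).differentiableAt (by simp)
  have hder : HasDerivAt (fun s => √(1 - w s)) (-deriv w s / (2 * √(1 - w s))) s :=
    (hwd.hasDerivAt.const_sub 1).sqrt h1.ne'
  have hd : deriv (fun s => √(1 - w s)) s = -deriv w s / (2 * √(1 - w s)) := hder.deriv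
  have hDu : Du (g s) (deriv g s) (√(1 - w s)) (deriv (fun s => √(1 - w s)) s)
      = Vale.Agent.H19.Sph.Dex (g s) (deriv g s) (w s) (deriv w s) := by
    rw [hd]
    exact rp_Du_of_w _ _ _ _ hw0 hw1
  refine ⟨hv, hvlt, div_pos (Real.sqrt_pos.mpr hDpos) hv, rfl, ?_, hDu⟩
  rw [hDu, div_pow, Real.sq_sqrt hDpos.le, hv2]
  field_simp

end Vale.Agent.H55.RP
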