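import Vale.Agent.H55.RP.Defs

/-!
ROW RP-IM-METRIC (proved; the statement is that of the stub; helper lemmas: fresh names with
stem `rpm_` in this file).  Mirror of `im_metric_point` in `Vale/Agent/H55/Sph/ImMetric.lean`
(which may be copied and adapted), with the signed radius `ρ₁ = g u`.

Write `G = g s`, `G' = deriv g s`, `U = u s`, `U' = deriv u s`, `v = √(1 - U²) > 0`, `E = e s`,
`p1 = rpP1 g u e s = -(v E) / G`, `p2 = rpP2 g u e s = 2 (U² E) / (v G)`.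
`x ↦ √(1 - u x ^ 2)` has derivative `-(U U') / v` at `s` (`HasDerivAt.sqrt`, radicand `≠ 0`).
Derivatives at `s` (product rule, `HasDerivAt.cos`, `HasDerivAt.sin`):
  `rpB1' = (G' U + G U') cos φ1 - G U sin φ1 * p1`, `rpB2' = (G' U + G U') sin φ1 + G U cos φ1 * p1`,
  `rpD1' = R cos φ2 - (G/2) v sin φ2 * p2`, `rpD2' = R sin φ2 + (G/2) v cos φ2 * p2`,
  with `R = (G'/2) v + (G/2) (-(U U') / v)`.
Then (`cos² + sin² = 1`):
  `rpB1'² + rpB2'² = (G' U + G U')² + G² U² p1² = (G' U + G U')² + U² v² E²`,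
  `rpD1'² + rpD2'² = R² + (G²/4) v² p2² = R² + U⁴ E²`,
  and the squares of `G' U + G U'` and `R` add up to `1 - Du G G' U U'` (definition of `Du`,
  `v² = 1 - U²`), so the sum is
  `1 - Du + U² E² (v² + U²) = 1` by `hD`;
  `rpB1 rpB2' - rpB2 rpB1' = G² U² p1 = -G U² v E`,
  `rpD1 rpD2' - rpD2 rpD1' = (G²/4) v² p2 = G U² v E / 2`, so the second identity holds;
  `rpB1² + rpB2² + 4 (rpD1² + rpD2²) = G² U² + G² v² = G²`.
-/

namespace Vale.Agent.H55.RP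

open scoped ContDiff

theorem rpm_rot (a b p c s : ℝ) (h : c ^ 2 + s ^ 2 = 1) :
    (a * c + b * (-s * p)) ^ 2 + (a * s + b * (c * p)) ^ 2 = a ^ 2 + b ^ 2 * p ^ 2 := by
  linear_combination (a ^ 2 + b ^ 2 * p ^ 2) * h

theorem rpm_area (a b p c s : ℝ) (h : c ^ 2 + s ^ 2 = 1) :
    b * c * (a * s + b * (c * p)) - b * s * (a * c + b * (-s * p)) = b ^ 2 * p := by
  linear_combination (b ^ 2 * p) * h

theorem rpm_D (G G' U U' : ℝ) (h1 : 1 - U ^ 2 ≠ 0) :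
    (G' * U + G * U') ^ 2
      + (G' ^ 2 * (1 - U ^ 2) / 4 - G * G' * U * U' / 2
        + G ^ 2 * U ^ 2 * U' ^ 2 / (4 * (1 - U ^ 2)))
      + Du G G' U U' = 1 := by
  unfold Du
  field_simp
  ring

theorem rpm_alg (G G' U U' v E : ℝ) (hG : G ≠ 0) (hv : v ≠ 0) (hv2 : v ^ 2 = 1 - U ^ 2)
    (hD : Du G G' U U' = U ^ 2 * E ^ 2) :
    (G' * U + G * U') ^ 2 + (G * U) ^ 2 * (-(v * E) / G) ^ 2
      + ((G' / 2 * v + G / 2 * (-(2 * U * U') / (2 * v))) ^ 2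
        + (G / 2 * v) ^ 2 * (2 * (U ^ 2 * E) / (v * G)) ^ 2) = 1 ∧
    (G * U) ^ 2 * (-(v * E) / G) + 2 * ((G / 2 * v) ^ 2 * (2 * (U ^ 2 * E) / (v * G))) = 0 ∧
    (G * U) ^ 2 + 4 * (G / 2 * v) ^ 2 = G ^ 2 := by
  have h1 : 1 - U ^ 2 ≠ 0 := by
    rw [← hv2]
    exact pow_ne_zero 2 hv
  have hR : (G' / 2 * v + G / 2 * (-(2 * U * U') / (2 * v))) ^ 2
      = G' ^ 2 * (1 - U ^ 2) / 4 - G * G' * U * U' / 2
        + G ^ 2 * U ^ 2 * U' ^ 2 / (4 * (1 - U ^ 2)) := by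
    rw [← hv2]
    field_simp
    ring
  have h2 : (G * U) ^ 2 * (-(v * E) / G) ^ 2 = U ^ 2 * E ^ 2 * v ^ 2 := by
    field_simp
  have h4 : (G / 2 * v) ^ 2 * (2 * (U ^ 2 * E) / (v * G)) ^ 2 = U ^ 4 * E ^ 2 := by
    field_simp
  refine ⟨?_, ?_, ?_⟩
  · rw [hR, h2, h4]
    have h5 := rpm_D G G' U U' h1
    rw [hD] at h5
    linear_combination h5 + U ^ 2 * E ^ 2 * hv2
  · field_simp
    ring
  · linear_combination G ^ 2 * hv2

theorem rp_metric_point (g u e φ1 φ2 : ℝ → ℝ) (s : ℝ)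
    (hg : DifferentiableAt ℝ g s) (hu : DifferentiableAt ℝ u s)
    (hg0 : 0 < g s) (hu1 : u s ^ 2 < 1)
    (hD : Du (g s) (deriv g s) (u s) (deriv u s) = u s ^ 2 * e s ^ 2)
    (hφ1 : HasDerivAt φ1 (rpP1 g u e s) s) (hφ2 : HasDerivAt φ2 (rpP2 g u e s) s) :
    DifferentiableAt ℝ (rpB1 g u φ1) s ∧ DifferentiableAt ℝ (rpB2 g u φ1) s ∧
    DifferentiableAt ℝ (rpD1 g u φ2) s ∧ DifferentiableAt ℝ (rpD2 g u φ2) s ∧
    deriv (rpB1 g u φ1) s ^ 2 + deriv (rpB2 g u φ1) s ^ 2 + deriv (rpD1 g u φ2) s ^ 2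
      + deriv (rpD2 g u φ2) s ^ 2 = 1 ∧
    1 * (rpB1 g u φ1 s * deriv (rpB2 g u φ1) s - rpB2 g u φ1 s * deriv (rpB1 g u φ1) s)
      + 2 * (rpD1 g u φ2 s * deriv (rpD2 g u φ2) s - rpD2 g u φ2 s * deriv (rpD1 g u φ2) s)
      = 0 ∧
    1 ^ 2 * (rpB1 g u φ1 s ^ 2 + rpB2 g u φ1 s ^ 2)
      + 2 ^ 2 * (rpD1 g u φ2 s ^ 2 + rpD2 g u φ2 s ^ 2) = g s ^ 2 := by
  have h1u : (0 : ℝ) < 1 - u s ^ 2 := by linarith
  have hv0 : √(1 - u s ^ 2) ≠ 0 := (Real.sqrt_pos.2 h1u).ne'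
  have hv2 : √(1 - u s ^ 2) ^ 2 = 1 - u s ^ 2 := Real.sq_sqrt h1u.le
  have hg' : HasDerivAt g (deriv g s) s := hg.hasDerivAt
  have hu' : HasDerivAt u (deriv u s) s := hu.hasDerivAt
  have hsub : HasDerivAt (fun x => 1 - u x ^ 2) (-(2 * u s * deriv u s)) s := by
    have h : HasDerivAt (fun x => 1 - u x ^ 2)
        (-(((2 : ℕ) : ℝ) * u s ^ (2 - 1) * deriv u s)) s := (hu'.fun_pow 2).const_sub 1
    refine h.congr_deriv ?_
    norm_num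
  have hv : HasDerivAt (fun x => √(1 - u x ^ 2))
      (-(2 * u s * deriv u s) / (2 * √(1 - u s ^ 2))) s := hsub.sqrt h1u.ne'
  have hρ1 : HasDerivAt (fun x => g x * u x) (deriv g s * u s + g s * deriv u s) s :=
    hg'.mul hu'
  have hρ2 : HasDerivAt (fun x => g x / 2 * √(1 - u x ^ 2))
      (deriv g s / 2 * √(1 - u s ^ 2)
        + g s / 2 * (-(2 * u s * deriv u s) / (2 * √(1 - u s ^ 2)))) s :=
    (hg'.div_const 2).mul hv
  have hc1 : HasDerivAt (fun x => Real.cos (φ1 x)) (-Real.sin (φ1 s) * rpP1 g u e s) s :=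
    hφ1.cos
  have hs1 : HasDerivAt (fun x => Real.sin (φ1 x)) (Real.cos (φ1 s) * rpP1 g u e s) s :=
    hφ1.sin
  have hc2 : HasDerivAt (fun x => Real.cos (φ2 x)) (-Real.sin (φ2 s) * rpP2 g u e s) s :=
    hφ2.cos
  have hs2 : HasDerivAt (fun x => Real.sin (φ2 x)) (Real.cos (φ2 s) * rpP2 g u e s) s :=
    hφ2.sin
  have hB1 : HasDerivAt (rpB1 g u φ1)
      ((deriv g s * u s + g s * deriv u s) * Real.cos (φ1 s)
        + g s * u s * (-Real.sin (φ1 s) * rpP1 g u e s)) s := hρ1.mul hc1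
  have hB2 : HasDerivAt (rpB2 g u φ1)
      ((deriv g s * u s + g s * deriv u s) * Real.sin (φ1 s)
        + g s * u s * (Real.cos (φ1 s) * rpP1 g u e s)) s := hρ1.mul hs1
  have hD1 : HasDerivAt (rpD1 g u φ2)
      ((deriv g s / 2 * √(1 - u s ^ 2)
          + g s / 2 * (-(2 * u s * deriv u s) / (2 * √(1 - u s ^ 2)))) * Real.cos (φ2 s)
        + g s / 2 * √(1 - u s ^ 2) * (-Real.sin (φ2 s) * rpP2 g u e s)) s := hρ2.mul hc2
  have hD2 : HasDerivAt (rpD2 g u φ2)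
      ((deriv g s / 2 * √(1 - u s ^ 2)
          + g s / 2 * (-(2 * u s * deriv u s) / (2 * √(1 - u s ^ 2)))) * Real.sin (φ2 s)
        + g s / 2 * √(1 - u s ^ 2) * (Real.cos (φ2 s) * rpP2 g u e s)) s := hρ2.mul hs2
  have ht1 : Real.cos (φ1 s) ^ 2 + Real.sin (φ1 s) ^ 2 = 1 := Real.cos_sq_add_sin_sq (φ1 s)
  have ht2 : Real.cos (φ2 s) ^ 2 + Real.sin (φ2 s) ^ 2 = 1 := Real.cos_sq_add_sin_sq (φ2 s)
  obtain ⟨ha1, ha2, ha3⟩ := rpm_alg (g s) (deriv g s) (u s) (deriv u s) (√(1 - u s ^ 2)) (e s)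
    hg0.ne' hv0 hv2 hD
  have hP1 : rpP1 g u e s = -(√(1 - u s ^ 2) * e s) / g s := rfl
  have hP2 : rpP2 g u e s = 2 * (u s ^ 2 * e s) / (√(1 - u s ^ 2) * g s) := rfl
  rw [← hP1, ← hP2] at ha1 ha2
  refine ⟨hB1.differentiableAt, hB2.differentiableAt, hD1.differentiableAt,
    hD2.differentiableAt, ?_, ?_, ?_⟩
  · rw [hB1.deriv, hB2.deriv, hD1.deriv, hD2.deriv, add_assoc,
      rpm_rot _ _ _ _ _ ht1, rpm_rot _ _ _ _ _ ht2]
    exact ha1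
  · rw [hB1.deriv, hB2.deriv, hD1.deriv, hD2.deriv]
    have e1 : rpB1 g u φ1 s = g s * u s * Real.cos (φ1 s) := rfl
    have e2 : rpB2 g u φ1 s = g s * u s * Real.sin (φ1 s) := rfl
    have e3 : rpD1 g u φ2 s = g s / 2 * √(1 - u s ^ 2) * Real.cos (φ2 s) := rfl
    have e4 : rpD2 g u φ2 s = g s / 2 * √(1 - u s ^ 2) * Real.sin (φ2 s) := rfl
    rw [e1, e2, e3, e4, rpm_area _ _ _ _ _ ht1, rpm_area _ _ _ _ _ ht2, one_mul]
    exact ha2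
  · have e1 : rpB1 g u φ1 s = g s * u s * Real.cos (φ1 s) := rfl
    have e2 : rpB2 g u φ1 s = g s * u s * Real.sin (φ1 s) := rfl
    have e3 : rpD1 g u φ2 s = g s / 2 * √(1 - u s ^ 2) * Real.cos (φ2 s) := rfl
    have e4 : rpD2 g u φ2 s = g s / 2 * √(1 - u s ^ 2) * Real.sin (φ2 s) := rfl
    rw [e1, e2, e3, e4]
    linear_combination ha3 + (g s * u s) ^ 2 * ht1 + 4 * (g s / 2 * √(1 - u s ^ 2)) ^ 2 * ht2

end Vale.Agent.H55.RP
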