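import Vale.Agent.H55.RP.Defs

/-!
ROW RP-IM-SMOOTH (replace the two `sorry`, keep the statements exactly; helper lemmas: fresh names
with stem `rps_` in this file).  Mirror of `Vale/Agent/H55/Sph/ImSmooth.lean` (`im_contDiffOn_P`,
`im_contDiffOn_B`), which may be copied and adapted.

`x ↦ √(1 - u x ^ 2)` is `ContDiffOn` on `Ioo 0 L` (`ContDiffOn.sqrt`, radicand `≠ 0` by `hu1`);
`rpP1 = -(√(1 - u²) * e) / g`, `rpP2 = 2 * (u² * e) / (√(1 - u²) * g)`: quotients with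
denominators `≠ 0` on `Ioo 0 L` (`hg0`, `Real.sqrt_pos`).  The four components are products.
-/

namespace Vale.Agent.H55.RP

open scoped ContDiff

theorem rps_sqrt (L : ℝ) (u : ℝ → ℝ) (hu : ContDiffOn ℝ ∞ u (Set.Ioo 0 L))
    (hu1 : ∀ s, 0 < s → s < L → u s ^ 2 < 1) :
    ContDiffOn ℝ ∞ (fun x => √(1 - u x ^ 2)) (Set.Ioo 0 L) :=
  (contDiffOn_const.sub (hu.pow 2)).sqrt (fun s hs => by
    have := hu1 s hs.1 hs.2
    linarith)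

theorem rp_contDiffOn_P (L : ℝ) (g u e : ℝ → ℝ) (hg : ContDiff ℝ ∞ g)
    (hu : ContDiffOn ℝ ∞ u (Set.Ioo 0 L)) (he : ContDiffOn ℝ ∞ e (Set.Ioo 0 L))
    (hu1 : ∀ s, 0 < s → s < L → u s ^ 2 < 1) (hg0 : ∀ s, 0 < s → s < L → 0 < g s) :
    ContDiffOn ℝ ∞ (rpP1 g u e) (Set.Ioo 0 L) ∧ ContDiffOn ℝ ∞ (rpP2 g u e) (Set.Ioo 0 L) := by
  have hgs := hg.contDiffOn (s := Set.Ioo 0 L)
  have hr := rps_sqrt L u hu hu1
  constructor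
  · unfold rpP1
    refine ContDiffOn.div ((hr.mul he).neg) hgs ?_
    intro s hs
    exact (hg0 s hs.1 hs.2).ne'
  · unfold rpP2
    refine ContDiffOn.div (contDiffOn_const.mul ((hu.pow 2).mul he)) (hr.mul hgs) ?_
    intro s hs
    have h1 : 0 < √(1 - u s ^ 2) := Real.sqrt_pos.mpr (by linarith [hu1 s hs.1 hs.2])
    exact (mul_pos h1 (hg0 s hs.1 hs.2)).ne'

theorem rp_contDiffOn_B (L : ℝ) (g u φ1 φ2 : ℝ → ℝ) (hg : ContDiff ℝ ∞ g)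
    (hu : ContDiffOn ℝ ∞ u (Set.Ioo 0 L)) (hu1 : ∀ s, 0 < s → s < L → u s ^ 2 < 1)
    (hφ1 : ContDiffOn ℝ ∞ φ1 (Set.Ioo 0 L)) (hφ2 : ContDiffOn ℝ ∞ φ2 (Set.Ioo 0 L)) :
    ContDiffOn ℝ ∞ (rpB1 g u φ1) (Set.Ioo 0 L) ∧ ContDiffOn ℝ ∞ (rpB2 g u φ1) (Set.Ioo 0 L) ∧
    ContDiffOn ℝ ∞ (rpD1 g u φ2) (Set.Ioo 0 L) ∧ ContDiffOn ℝ ∞ (rpD2 g u φ2) (Set.Ioo 0 L) := by
  have hgs := hg.contDiffOn (s := Set.Ioo 0 L)
  have hr := rps_sqrt L u hu hu1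
  refine ⟨?_, ?_, ?_, ?_⟩
  · unfold rpB1
    exact (hgs.mul hu).mul hφ1.cos
  · unfold rpB2
    exact (hgs.mul hu).mul hφ1.sin
  · unfold rpD1
    exact ((hgs.div_const 2).mul hr).mul hφ2.cos
  · unfold rpD2
    exact ((hgs.div_const 2).mul hr).mul hφ2.sin

end Vale.Agent.H55.RP
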