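import Vale.Agent.H55.RP.Defs

/-!
ROW RP-IM-SYM (both statements proved; helper lemmas carry the stem `rpy_`).

* `rp_phase_sym`: `ψ s = φ (L - s) - φ s` has derivative `-P (L - s) - P s = 0` at every point of
  `Ioo 0 L` (chain rule with `s ↦ L - s`, which maps `Ioo 0 L` to itself), so it is constant on
  the interval, and `ψ (L/2) = 0`.
* `rp_pole_P`: `√DD = u * e`, `√(1 - (1 - u²)) = u`; then cancel `u`; `g` may be zero, in which
  case both sides vanish.
-/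

namespace Vale.Agent.H55.RP

open scoped ContDiff

/-- The reflected difference has zero derivative on the open interval. -/
theorem rpy_hasDerivAt (L : ℝ) (P φ : ℝ → ℝ)
    (hφ : ∀ s ∈ Set.Ioo 0 L, HasDerivAt φ (P s) s)
    (hP : ∀ s, 0 < s → s < L → P (L - s) = -P s) (s : ℝ) (hs : s ∈ Set.Ioo 0 L) :
    HasDerivAt (fun t => φ (L - t) - φ t) 0 s := by
  have hs' : L - s ∈ Set.Ioo 0 L := ⟨by linarith [hs.2], by linarith [hs.1]⟩
  have h1 : HasDerivAt (fun t : ℝ => L - t) (-1) s := by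
    simpa using (hasDerivAt_id s).const_sub L
  have h2 : HasDerivAt (fun t => φ (L - t)) (P (L - s) * (-1)) s :=
    HasDerivAt.comp s (hφ (L - s) hs') h1
  have h3 := h2.sub (hφ s hs)
  have h4 : P (L - s) * (-1) - P s = 0 := by
    rw [hP s hs.1 hs.2]; ring
  rw [h4] at h3
  exact h3

theorem rp_phase_sym (L : ℝ) (P φ : ℝ → ℝ) (hL : 0 < L)
    (hφ : ∀ s ∈ Set.Ioo 0 L, HasDerivAt φ (P s) s)
    (hP : ∀ s, 0 < s → s < L → P (L - s) = -P s) :
    ∀ s, 0 < s → s < L → φ (L - s) = φ s := by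
  intro s hs0 hsL
  have hd : ∀ t ∈ Set.Ioo 0 L, HasDerivAt (fun t => φ (L - t) - φ t) 0 t :=
    fun t ht => rpy_hasDerivAt L P φ hφ hP t ht
  have hdiff : DifferentiableOn ℝ (fun t => φ (L - t) - φ t) (Set.Ioo 0 L) :=
    fun t ht => (hd t ht).differentiableAt.differentiableWithinAt
  have hderiv : Set.EqOn (deriv (fun t => φ (L - t) - φ t)) 0 (Set.Ioo 0 L) :=
    fun t ht => (hd t ht).deriv
  have hmid : L / 2 ∈ Set.Ioo 0 L := ⟨by linarith [hL], by linarith [hL]⟩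
  have hconst := IsOpen.is_const_of_deriv_eq_zero isOpen_Ioo isPreconnected_Ioo hdiff hderiv
    (⟨hs0, hsL⟩ : s ∈ Set.Ioo 0 L) hmid
  have hhalf : L - L / 2 = L / 2 := by ring
  simp only [hhalf, sub_self] at hconst
  linarith

theorem rp_pole_P (g u e DD : ℝ) (hu : 0 < u) (hu1 : u ^ 2 < 1) (he : 0 < e)
    (hD : DD = u ^ 2 * e ^ 2) :
    -(√(1 - u ^ 2) * e) / g = 1 * (-(√DD * √(1 - u ^ 2)) / (√(1 - (1 - u ^ 2)) * g)) ∧
    2 * (u ^ 2 * e) / (√(1 - u ^ 2) * g)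
      = 1 * (2 * (√DD * √(1 - (1 - u ^ 2))) / (√(1 - u ^ 2) * g)) := by
  have h1 : √DD = u * e := by
    have : DD = (u * e) ^ 2 := by rw [hD]; ring
    rw [this, Real.sqrt_sq (by positivity)]
  have h2 : √(1 - (1 - u ^ 2)) = u := by
    have : 1 - (1 - u ^ 2) = u ^ 2 := by ring
    rw [this, Real.sqrt_sq hu.le]
  rw [h1, h2]
  have hu0 : u ≠ 0 := hu.ne'
  have _hu1 := hu1
  constructor
  · by_cases hg : g = 0
    · subst hg; simp
    · field_simp
  · ring

end Vale.Agent.H55.RP
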