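import Vale.Agent.H55.Sph.Imm
import Vale.Agent.H55.RP.ImSmooth
import Vale.Agent.H55.RP.ImMetric
import Vale.Agent.H55.RP.ImSym

/-!
From a signed profile with a pole germ to the immersion of the projective plane: the assembly
mirrors `Vale/Agent/H55/Sph/Imm.lean`.  The pole chart comes from the generic `Sph.im_pole` with
`W = 1 - u²`; the chart at the other pole is the first one composed with `q ↦ -q`.
-/

namespace Vale.Agent.H55.RP

open scoped ContDiff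

theorem rp_immersion_of_uprofile (L ε : ℝ) (g h : ℝ → ℝ) (hd : RPData L ε g h)
    (u e ωN QN : ℝ → ℝ) (η : ℝ) (hu : UProfile L g u e ωN QN η) : RPImm L g := by
  have hL := hd.Lpos
  have hε := hd.εpos
  -- the phases
  obtain ⟨sP1, sP2⟩ := rp_contDiffOn_P L g u e hd.sg hu.su hu.se hu.u1 hd.gpos
  obtain ⟨φ1, sφ1, dφ1⟩ := Sph.im_primitive 0 L (rpP1 g u e) sP1
  obtain ⟨φ2, sφ2, dφ2⟩ := Sph.im_primitive 0 L (rpP2 g u e) sP2
  obtain ⟨sb1, sb2, sd1, sd2⟩ := rp_contDiffOn_B L g u φ1 φ2 hd.sg hu.su hu.u1 sφ1 sφ2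
  -- symmetry of the phases and of the components
  have hP1 : ∀ s, 0 < s → s < L → rpP1 g u e (L - s) = -rpP1 g u e s := by
    intro s hs hsL
    unfold rpP1
    rw [hu.usym s hs hsL, hu.esym s hs hsL, hd.sym s, neg_sq]
    ring
  have hP2 : ∀ s, 0 < s → s < L → rpP2 g u e (L - s) = -rpP2 g u e s := by
    intro s hs hsL
    unfold rpP2
    rw [hu.usym s hs hsL, hu.esym s hs hsL, hd.sym s, neg_sq]
    ring
  have sym1 := rp_phase_sym L (rpP1 g u e) φ1 hL dφ1 hP1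
  have sym2 := rp_phase_sym L (rpP2 g u e) φ2 hL dφ2 hP2
  have hb1s : ∀ s, 0 < s → s < L → rpB1 g u φ1 (L - s) = -rpB1 g u φ1 s := by
    intro s hs hsL
    unfold rpB1
    rw [hd.sym s, hu.usym s hs hsL, sym1 s hs hsL]
    ring
  have hb2s : ∀ s, 0 < s → s < L → rpB2 g u φ1 (L - s) = -rpB2 g u φ1 s := by
    intro s hs hsL
    unfold rpB2
    rw [hd.sym s, hu.usym s hs hsL, sym1 s hs hsL]
    ring
  have hd1s : ∀ s, 0 < s → s < L → rpD1 g u φ2 (L - s) = rpD1 g u φ2 s := by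
    intro s hs hsL
    unfold rpD1
    rw [hd.sym s, hu.usym s hs hsL, sym2 s hs hsL, neg_sq]
  have hd2s : ∀ s, 0 < s → s < L → rpD2 g u φ2 (L - s) = rpD2 g u φ2 s := by
    intro s hs hsL
    unfold rpD2
    rw [hd.sym s, hu.usym s hs hsL, sym2 s hs hsL, neg_sq]
  -- the radius
  obtain ⟨η1, hη1, hpos1⟩ := Sph.im_pos_near h hd.sh.continuous hd.h0
  obtain ⟨η', hη'pos, hη'η, hη'ε, hη'L, hη'1⟩ : ∃ η' : ℝ, 0 < η' ∧ η' ≤ η ∧ η' ≤ ε ^ 2 ∧
      η' ≤ (L / 2) ^ 2 ∧ η' ≤ η1 := by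
    refine ⟨min (min η (ε ^ 2)) (min ((L / 2) ^ 2) η1), ?_, ?_, ?_, ?_, ?_⟩
    · have h1 : (0 : ℝ) < ε ^ 2 := by positivity
      have h2 : (0 : ℝ) < (L / 2) ^ 2 := by positivity
      exact lt_min (lt_min hu.ηpos h1) (lt_min h2 hη1)
    · exact (min_le_left _ _).trans (min_le_left _ _)
    · exact (min_le_left _ _).trans (min_le_right _ _)
    · exact (min_le_right _ _).trans (min_le_left _ _)
    · exact (min_le_right _ _).trans (min_le_right _ _)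
  have hsε : ∀ s : ℝ, 0 < s → s ^ 2 < η' → s < ε := fun s hs hs2 =>
    Sph.im_lt_of_sq_lt s ε η' hs hε hs2 hη'ε
  have hsL : ∀ s : ℝ, 0 < s → s ^ 2 < η' → s < L / 2 := fun s hs hs2 =>
    Sph.im_lt_of_sq_lt s (L / 2) η' hs (by linarith) hs2 hη'L
  have hsub : Set.Ioo (-η') η' ⊆ Set.Ioo (-η) η := fun t ht =>
    ⟨by linarith [ht.1], by linarith [ht.2]⟩
  -- the pole
  obtain ⟨A1, A2, B1, B2, sA1, sA2, sB1, sB2, hA0, hAN⟩ :=
    Sph.im_pole η' 1 h ωN QN g (fun s => 1 - u s ^ 2)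
      (fun s => Du (g s) (deriv g s) (u s) (deriv u s)) φ1 φ2 hη'pos
      hd.sh.contDiffOn (hu.sωN.mono hsub) (hu.sQN.mono hsub)
      (fun t ht => ⟨hpos1 t (lt_of_lt_of_le ht hη'1), (hu.posN t (lt_of_lt_of_le ht hη'η)).1,
        (hu.posN t (lt_of_lt_of_le ht hη'η)).2.1, (hu.posN t (lt_of_lt_of_le ht hη'η)).2.2⟩)
      hd.h0
      (fun s hs hs2 => hd.gN s (by rw [abs_of_pos hs]; exact hsε s hs hs2))
      (fun s hs hs2 => (hu.uN s hs (lt_of_lt_of_le hs2 hη'η)).2.2)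
      (fun s hs hs2 => hu.DN s hs (lt_of_lt_of_le hs2 hη'η))
      (fun s hs hs2 => by
        have hsLt : s < L := by linarith [hsL s hs hs2]
        have h1 := dφ1 s ⟨hs, hsLt⟩
        obtain ⟨hu0, he0, -⟩ := hu.uN s hs (lt_of_lt_of_le hs2 hη'η)
        have key := (rp_pole_P (g s) (u s) (e s) (Du (g s) (deriv g s) (u s) (deriv u s)) hu0
          (hu.u1 s hs hsLt) he0 (hu.hD s hs hsLt)).1
        show HasDerivAt φ1 (1 * (-(√(Du (g s) (deriv g s) (u s) (deriv u s)) * √(1 - u s ^ 2))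
          / (√(1 - (1 - u s ^ 2)) * g s))) s
        rw [← key]
        exact h1)
      (fun s hs hs2 => by
        have hsLt : s < L := by linarith [hsL s hs hs2]
        have h1 := dφ2 s ⟨hs, hsLt⟩
        obtain ⟨hu0, he0, -⟩ := hu.uN s hs (lt_of_lt_of_le hs2 hη'η)
        have key := (rp_pole_P (g s) (u s) (e s) (Du (g s) (deriv g s) (u s) (deriv u s)) hu0
          (hu.u1 s hs hsLt) he0 (hu.hD s hs hsLt)).2
        show HasDerivAt φ2 (1 * (2 * (√(Du (g s) (deriv g s) (u s) (deriv u s))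
          * √(1 - (1 - u s ^ 2))) / (√(1 - u s ^ 2) * g s))) s
        rw [← key]
        exact h1)
  -- the four components near the pole
  have hpole : ∀ s, 0 < s → s ^ 2 < η' →
      rpB1 g u φ1 s = s * A1 (s ^ 2) ∧ rpB2 g u φ1 s = s * A2 (s ^ 2) ∧
      rpD1 g u φ2 s = s ^ 2 * B1 (s ^ 2) ∧ rpD2 g u φ2 s = s ^ 2 * B2 (s ^ 2) := by
    intro s hs hs2
    obtain ⟨a1, a2, a3, a4⟩ := hAN s hs hs2
    obtain ⟨hu0, -, -⟩ := hu.uN s hs (lt_of_lt_of_le hs2 hη'η)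
    have hsq : √(1 - (1 - u s ^ 2)) = u s := by
      rw [show 1 - (1 - u s ^ 2) = u s ^ 2 by ring, Real.sqrt_sq hu0.le]
    have a1' : g s * √(1 - (1 - u s ^ 2)) * Real.cos (φ1 s) = s * A1 (s ^ 2) := a1
    have a2' : g s * √(1 - (1 - u s ^ 2)) * Real.sin (φ1 s) = s * A2 (s ^ 2) := a2
    rw [hsq] at a1' a2'
    exact ⟨a1', a2', a3, a4⟩
  -- assembly
  refine ⟨Imm.equivMap 1 2 (rpB1 g u φ1) (rpB2 g u φ1) (rpD1 g u φ2) (rpD2 g u φ2),
    Sph.imChart A1 A2 B1 B2, Sph.imChart (fun t => -A1 t) (fun t => -A2 t) B1 B2, √η',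
    Real.sqrt_pos.mpr hη'pos, ?_, ?_, ?_, ?_, ?_, ?_, ?_, ?_, ?_, ?_⟩
  · exact Sph.im_contDiffOn_equivMap 1 2 L _ _ _ _ sb1 sb2 sd1 sd2
  · intro s θ
    have e1 : (1 : ℝ) * (θ + 2 * Real.pi) = 1 * θ + 2 * Real.pi := by ring
    have e2 : (2 : ℝ) * (θ + 2 * Real.pi) = 2 * θ + (2 : ℕ) * (2 * Real.pi) := by
      push_cast; ring
    simp only [Imm.equivMap, Imm.compC, Imm.compS]
    rw [e1, e2, Real.cos_add_two_pi, Real.sin_add_two_pi, Real.cos_add_nat_mul_two_pi,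
      Real.sin_add_nat_mul_two_pi]
  · intro s θ hs hsL
    have e1 : (1 : ℝ) * (θ + Real.pi) = 1 * θ + Real.pi := by ring
    have e2 : (2 : ℝ) * (θ + Real.pi) = 2 * θ + 2 * Real.pi := by ring
    have c1 : Imm.compC 1 (rpB1 g u φ1) (rpB2 g u φ1) (L - s, θ + Real.pi)
        = Imm.compC 1 (rpB1 g u φ1) (rpB2 g u φ1) (s, θ) := by
      simp only [Imm.compC]
      rw [hb1s s hs hsL, hb2s s hs hsL, e1, Real.cos_add_pi, Real.sin_add_pi]
      ring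
    have c2 : Imm.compS 1 (rpB1 g u φ1) (rpB2 g u φ1) (L - s, θ + Real.pi)
        = Imm.compS 1 (rpB1 g u φ1) (rpB2 g u φ1) (s, θ) := by
      simp only [Imm.compS]
      rw [hb1s s hs hsL, hb2s s hs hsL, e1, Real.cos_add_pi, Real.sin_add_pi]
      ring
    have c3 : Imm.compC 2 (rpD1 g u φ2) (rpD2 g u φ2) (L - s, θ + Real.pi)
        = Imm.compC 2 (rpD1 g u φ2) (rpD2 g u φ2) (s, θ) := by
      simp only [Imm.compC]
      rw [hd1s s hs hsL, hd2s s hs hsL, e2, Real.cos_add_two_pi, Real.sin_add_two_pi]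
    have c4 : Imm.compS 2 (rpD1 g u φ2) (rpD2 g u φ2) (L - s, θ + Real.pi)
        = Imm.compS 2 (rpD1 g u φ2) (rpD2 g u φ2) (s, θ) := by
      simp only [Imm.compS]
      rw [hd1s s hs hsL, hd2s s hs hsL, e2, Real.cos_add_two_pi, Real.sin_add_two_pi]
    simp only [Imm.equivMap, c1, c2, c3, c4]
  · intro p hp0 hpL
    have hgd : DifferentiableAt ℝ g p.1 := hd.sg.differentiable (by simp) p.1
    have hud : DifferentiableAt ℝ u p.1 :=
      (hu.su.contDiffAt (Ioo_mem_nhds hp0 hpL)).differentiableAt (by simp)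
    obtain ⟨m1, m2, m3, m4, mE, mF, mG⟩ := rp_metric_point g u e φ1 φ2 p.1 hgd hud
      (hd.gpos p.1 hp0 hpL) (hu.u1 p.1 hp0 hpL) (hu.hD p.1 hp0 hpL)
      (dφ1 p.1 ⟨hp0, hpL⟩) (dφ2 p.1 ⟨hp0, hpL⟩)
    obtain ⟨k1, k2, k3⟩ := Sph.im_equivMap_metric 1 2 _ _ _ _ p m1 m2 m3 m4
    exact ⟨k1.trans mE, k2.trans mF, k3.trans mG⟩
  · have h1 := Sph.im_chart_contDiffOn η' A1 A2 B1 B2 hη'pos sA1 sA2 sB1 sB2
    rw [Real.sq_sqrt hη'pos.le]
    exact h1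
  · have h1 := Sph.im_chart_contDiffOn η' (fun t => -A1 t) (fun t => -A2 t) B1 B2 hη'pos
      sA1.neg sA2.neg sB1 sB2
    rw [Real.sq_sqrt hη'pos.le]
    exact h1
  · exact Sph.im_chart_poleIsom η' A1 A2 B1 B2 hη'pos sA1 sA2 sB1 sB2 hA0
  · refine Sph.im_chart_poleIsom η' (fun t => -A1 t) (fun t => -A2 t) B1 B2 hη'pos
      sA1.neg sA2.neg sB1 sB2 ?_
    show (-A1 0) ^ 2 + (-A2 0) ^ 2 = 1
    rw [neg_sq, neg_sq]
    exact hA0
  · intro s θ hs hsδ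
    have hs2 : s ^ 2 < η' := (Real.lt_sqrt hs.le).mp hsδ
    obtain ⟨a1, a2, a3, a4⟩ := hpole s hs hs2
    exact Sph.im_chart_polar A1 A2 B1 B2 _ _ _ _ s θ a1 a2 a3 a4
  · intro s θ hs hsδ
    have hs2 : s ^ 2 < η' := (Real.lt_sqrt hs.le).mp hsδ
    have hsLt : s < L := by linarith [hsL s hs hs2]
    obtain ⟨a1, a2, a3, a4⟩ := hpole s hs hs2
    have b1 : (fun x => rpB1 g u φ1 (L - x)) s = s * (fun t => -A1 t) (s ^ 2) := by
      show rpB1 g u φ1 (L - s) = s * (-A1 (s ^ 2))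
      rw [hb1s s hs hsLt, a1]
      ring
    have b2 : (fun x => rpB2 g u φ1 (L - x)) s = s * (fun t => -A2 t) (s ^ 2) := by
      show rpB2 g u φ1 (L - s) = s * (-A2 (s ^ 2))
      rw [hb2s s hs hsLt, a2]
      ring
    have b3 : (fun x => rpD1 g u φ2 (L - x)) s = s ^ 2 * B1 (s ^ 2) := by
      show rpD1 g u φ2 (L - s) = s ^ 2 * B1 (s ^ 2)
      rw [hd1s s hs hsLt, a3]
    have b4 : (fun x => rpD2 g u φ2 (L - x)) s = s ^ 2 * B2 (s ^ 2) := by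
      show rpD2 g u φ2 (L - s) = s ^ 2 * B2 (s ^ 2)
      rw [hd2s s hs hsLt, a4]
    exact Sph.im_chart_polar (fun t => -A1 t) (fun t => -A2 t) B1 B2
      (fun x => rpB1 g u φ1 (L - x)) (fun x => rpB2 g u φ1 (L - x))
      (fun x => rpD1 g u φ2 (L - x)) (fun x => rpD2 g u φ2 (L - x)) s θ b1 b2 b3 b4

end Vale.Agent.H55.RP
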