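import Vale.Agent.H55.RP.Profile
import Vale.Agent.H55.RP.Imm

/-!
Smooth isometric immersions into `ℝ⁴` of rotationally symmetric projective planes (the sphere
`ds² + g(s)² dθ²` with `g (L - s) = g s`, divided by `(s, θ) ↦ (L - s, θ + π)`) with negative
curvature at the pole and `|g'| < 2`: the signed profile comes from `rp_exists_uprofile`
(`Profile.lean`), the immersion from `rp_immersion_of_uprofile` (`Imm.lean`).
-/

namespace Vale.Agent.H55.RP

open scoped ContDiff

theorem rp_immersion (L ε : ℝ) (g h : ℝ → ℝ) (hd : RPData L ε g h) : RPImm L g := by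
  obtain ⟨u, e, ωN, QN, η, hu⟩ := rp_exists_uprofile L ε g h hd
  exact rp_immersion_of_uprofile L ε g h hd u e ωN QN η hu

end Vale.Agent.H55.RP
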