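import Vale.Agent.H55.RP.Zone
import Vale.Agent.H55.RP.Globalize

/-!
The zone around the middle circle for a smooth even `γ` with `γ 0 > 0` (no global bounds):
`rp_globalize` followed by `rp_zone`.
-/

namespace Vale.Agent.H55.RP

open scoped ContDiff

theorem rp_mid (γ : ℝ → ℝ) (sγ : ContDiff ℝ ∞ γ) (eγ : ∀ x, γ (-x) = γ x) (h0 : 0 < γ 0)
    (b₀ C₀ : ℝ) (hb₀ : 0 < b₀) :
    ∃ (U E : ℝ → ℝ) (a b C : ℝ), 0 < a ∧ a < b ∧ b ≤ b₀ ∧ C₀ ≤ C ∧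
      ContDiff ℝ ∞ U ∧ ContDiff ℝ ∞ E ∧ (∀ x, U (-x) = -U x) ∧ (∀ x, E (-x) = -E x) ∧
      (∀ x, |x| ≤ b → U x ^ 2 < 1) ∧
      (∀ x, |x| ≤ b → Du (γ x) (deriv γ x) (U x) (deriv U x) = U x ^ 2 * E x ^ 2) ∧
      (∀ x, a ≤ x → x ≤ b → 0 < E x) ∧
      (∀ x, a ≤ x → x ≤ b → U x = √(1 - Vale.Agent.H19.Sph.Jinv (C * γ x ^ 6))) := by
  obtain ⟨γt, ρ, hρ, hz, hγt⟩ := rp_globalize γ sγ eγ h0
  obtain ⟨U, E, a, b, C, ha, hab, hb, hC, sU, sE, oU, oE, hU1, hUD, hE, hUJ⟩ :=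
    rp_zone γt (γ 0 / 2) (2 * γ 0) hz (min b₀ (ρ / 2)) C₀ (lt_min hb₀ (by linarith))
  have hbρ : b < ρ := by
    have := (le_min_iff.mp hb).2
    linarith
  have hev : ∀ x, |x| ≤ b → γt =ᶠ[nhds x] γ := by
    intro x hx
    have hmem : {y : ℝ | |y| < ρ} ∈ nhds x :=
      (isOpen_lt continuous_abs continuous_const).mem_nhds (lt_of_le_of_lt hx hbρ)
    exact Filter.mem_of_superset hmem (fun y hy => hγt y hy)
  refine ⟨U, E, a, b, C, ha, hab, (le_min_iff.mp hb).1, hC, sU, sE, oU, oE, hU1, ?_, hE, ?_⟩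
  · intro x hx
    have h := hUD x hx
    rw [(hev x hx).self_of_nhds, (hev x hx).deriv_eq] at h
    exact h
  · intro x hxa hxb
    have h := hUJ x hxa hxb
    have hx : |x| ≤ b := by
      rw [abs_of_nonneg (by linarith)]
      exact hxb
    rw [(hev x hx).self_of_nhds] at h
    exact h

end Vale.Agent.H55.RP
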