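import Vale.Agent.H55.RP.Glue3
import Vale.Agent.H55.RP.Defs

/-!
ROW RP-PIECES (replace the `sorry`, keep the statement exactly; helper lemmas: fresh names with
stem `rpp_` in this file; `rp_glue3` from `Glue3.lean` is to be used AS STATED, whether or not its
proof has landed).  The global signed profile `u` and twist `e` on `(0, L)` from the pole-side
pair `(uA, eA)` on `(0, L/2)` and the middle pair `(U, E)` in the variable `x = L/2 - s`.

Write `c = L / 2`.
1. Overlap for `e`: for `c - b < s < c - a` put `x = c - s ∈ (a, b)`.  `uA` agrees with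
   `fun y => U (c - y)` on the open interval `Ioo (c - b) (c - a)` (`hov`), a neighbourhood of
   `s`, so `deriv uA s = -deriv U (c - s)` (`Filter.EventuallyEq.deriv_eq`,
   `deriv_comp_const_sub`).  `hA s`: `Du (g s) (deriv g s) (uA s) (deriv uA s) = uA s ^ 2 * eA s ^ 2`;
   `hUD x` (note `c - x = s`) and `Du_neg`:
   `Du (g s) (deriv g s) (uA s) (deriv uA s) = U x ^ 2 * E x ^ 2 = uA s ^ 2 * E x ^ 2`.
   As `uA s > 0`: `eA s ^ 2 = E x ^ 2`; both are positive (`hEpos`), so `eA s = E (c - s)`.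
2. `rp_glue3 L a b ha hab hb uA U suA sU oU hov` gives `u`; `rp_glue3 … eA E …` gives `e`.
   These give smoothness, antisymmetry and the last clause.
3. `u s ^ 2 < 1` and the deficit identity at `0 < s < L`, three cases (they cover, as `a < b`):
   * `s < c - a`: `u, e` agree near `s` with `uA, eA` (values and `deriv u s = deriv uA s`): `hA`.
   * `c - b < s < c + b`: `u, e` agree near `s` with `fun y => U (c - y)`, `fun y => E (c - y)`;
     with `x = c - s`, `|x| < b`: `u s = U x`, `deriv u s = -deriv U x`, `e s = E x`; `hU1`,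
     and `hUD x` with `Du_neg` (`Du g (-g') u (-u') = Du g g' u u'`).
   * `c + b ≤ s`: `t = L - s` satisfies `0 < t < c - a`, so the first case holds at `t`.
     By antisymmetry `u =ᶠ[nhds s] fun y => -u (L - y)` (on `Ioo 0 L`), hence `u s = -u t`,
     `deriv u s = deriv u t`, `e s = -e t`; `g s = g t` and `deriv g s = -deriv g t` (`gsym`,
     `deriv_comp_const_sub`); conclude with `Du_neg'` (`Du g (-g') (-u) u' = Du g g' u u'`).
-/

namespace Vale.Agent.H55.RP

open scoped ContDiff

theorem rp_profile_of_pieces (L a b : ℝ) (g uA eA U E : ℝ → ℝ) (ha : 0 < a) (hab : a < b)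
    (hb : b < L / 2) (sg : ContDiff ℝ ∞ g) (gsym : ∀ s, g (L - s) = g s)
    (suA : ContDiffOn ℝ ∞ uA (Set.Ioo 0 (L / 2))) (seA : ContDiffOn ℝ ∞ eA (Set.Ioo 0 (L / 2)))
    (hA : ∀ s ∈ Set.Ioo 0 (L / 2), 0 < uA s ∧ uA s < 1 ∧ 0 < eA s ∧
      Du (g s) (deriv g s) (uA s) (deriv uA s) = uA s ^ 2 * eA s ^ 2)
    (sU : ContDiff ℝ ∞ U) (sE : ContDiff ℝ ∞ E) (oU : ∀ x, U (-x) = -U x)
    (oE : ∀ x, E (-x) = -E x) (hU1 : ∀ x, |x| ≤ b → U x ^ 2 < 1)
    (hUD : ∀ x, |x| ≤ b →
      Du (g (L / 2 - x)) (-deriv g (L / 2 - x)) (U x) (deriv U x) = U x ^ 2 * E x ^ 2)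
    (hEpos : ∀ x, a ≤ x → x ≤ b → 0 < E x)
    (hov : ∀ s, L / 2 - b < s → s < L / 2 - a → uA s = U (L / 2 - s)) :
    ∃ u e : ℝ → ℝ, ContDiffOn ℝ ∞ u (Set.Ioo 0 L) ∧ ContDiffOn ℝ ∞ e (Set.Ioo 0 L) ∧
      (∀ s, 0 < s → s < L → u s ^ 2 < 1) ∧ (∀ s, 0 < s → s < L → u (L - s) = -u s) ∧
      (∀ s, 0 < s → s < L → e (L - s) = -e s) ∧
      (∀ s, 0 < s → s < L → Du (g s) (deriv g s) (u s) (deriv u s) = u s ^ 2 * e s ^ 2) ∧
      (∀ s, 0 < s → s < L / 2 - a → u =ᶠ[nhds s] uA ∧ e =ᶠ[nhds s] eA) := by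
  -- the overlap
  have hovd : ∀ s, L / 2 - b < s → s < L / 2 - a → deriv uA s = -deriv U (L / 2 - s) := by
    intro s h1 h2
    have hev : uA =ᶠ[nhds s] fun y => U (L / 2 - y) := by
      filter_upwards [Ioo_mem_nhds h1 h2] with y hy
      exact hov y hy.1 hy.2
    rw [hev.deriv_eq]
    exact deriv_comp_const_sub (f := U) (a := L / 2) (x := s)
  have hDU : ∀ x, |x| ≤ b →
      Du (g (L / 2 - x)) (deriv g (L / 2 - x)) (U x) (-deriv U x) = U x ^ 2 * E x ^ 2 := by
    intro x hx
    rw [← hUD x hx, ← Du_neg (g (L / 2 - x)) (-deriv g (L / 2 - x)) (U x) (deriv U x), neg_neg]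
  have hove : ∀ s, L / 2 - b < s → s < L / 2 - a → eA s = E (L / 2 - s) := by
    intro s h1 h2
    have hs : s ∈ Set.Ioo 0 (L / 2) := ⟨by linarith, by linarith⟩
    obtain ⟨hu0, -, he0, hD⟩ := hA s hs
    have hx : |L / 2 - s| ≤ b := by
      rw [abs_le]
      constructor <;> linarith
    have hD2 := hDU (L / 2 - s) hx
    rw [sub_sub_cancel] at hD2
    rw [hovd s h1 h2, hov s h1 h2, hD2] at hD
    have hUpos : 0 < U (L / 2 - s) := by
      rw [← hov s h1 h2]
      exact hu0
    have hE0 : 0 < E (L / 2 - s) := hEpos _ (by linarith) (by linarith)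
    have hsq : E (L / 2 - s) ^ 2 = eA s ^ 2 := mul_left_cancel₀ (pow_ne_zero 2 hUpos.ne') hD
    exact ((sq_eq_sq₀ hE0.le he0.le).mp hsq).symm
  obtain ⟨u, su, usym, uL, uM⟩ := rp_glue3 L a b ha hab hb uA U suA sU oU hov
  obtain ⟨e, se, esym, eL, eM⟩ := rp_glue3 L a b ha hab hb eA E seA sE oE hove
  -- the pole side
  have hcaseA : ∀ s, 0 < s → s < L / 2 - a →
      u s ^ 2 < 1 ∧ Du (g s) (deriv g s) (u s) (deriv u s) = u s ^ 2 * e s ^ 2 := by
    intro s h0 h1
    have hs : s ∈ Set.Ioo 0 (L / 2) := ⟨h0, by linarith⟩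
    obtain ⟨hu0, hu1, -, hD⟩ := hA s hs
    have e1 : u s = uA s := (uL s h1).eq_of_nhds
    have e2 : deriv u s = deriv uA s := (uL s h1).deriv_eq
    have e3 : e s = eA s := (eL s h1).eq_of_nhds
    rw [e1, e2, e3]
    exact ⟨by nlinarith, hD⟩
  have hmain : ∀ s, 0 < s → s < L →
      u s ^ 2 < 1 ∧ Du (g s) (deriv g s) (u s) (deriv u s) = u s ^ 2 * e s ^ 2 := by
    intro s h0 hL
    by_cases h1 : s < L / 2 - a
    · exact hcaseA s h0 h1
    · have h1' : L / 2 - a ≤ s := not_lt.mp h1
      by_cases h2 : s < L / 2 + b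
      · -- the middle zone
        have hsb : L / 2 - b < s := by linarith
        have e1 : u s = U (L / 2 - s) := (uM s hsb h2).eq_of_nhds
        have e2 : deriv u s = -deriv U (L / 2 - s) := by
          rw [(uM s hsb h2).deriv_eq]
          exact deriv_comp_const_sub (f := U) (a := L / 2) (x := s)
        have e3 : e s = E (L / 2 - s) := (eM s hsb h2).eq_of_nhds
        have hx : |L / 2 - s| ≤ b := by
          rw [abs_le]
          constructor <;> linarith
        have hD2 := hDU (L / 2 - s) hx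
        rw [sub_sub_cancel] at hD2
        rw [e1, e2, e3]
        exact ⟨hU1 _ hx, hD2⟩
      · -- the far side, by antisymmetry
        have h2' : L / 2 + b ≤ s := not_lt.mp h2
        have ht0 : 0 < L - s := by linarith
        have ht1 : L - s < L / 2 - a := by linarith
        obtain ⟨hA1, hA2⟩ := hcaseA (L - s) ht0 ht1
        have hev : u =ᶠ[nhds s] fun y => -u (L - y) := by
          filter_upwards [Ioo_mem_nhds h0 hL] with y hy
          rw [usym y hy.1 hy.2, neg_neg]
        have e1 : u s = -u (L - s) := hev.eq_of_nhds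
        have e2 : deriv u s = deriv u (L - s) := by
          rw [hev.deriv_eq, deriv.fun_neg, deriv_comp_const_sub (f := u) (a := L) (x := s),
            neg_neg]
        have e3 : e s = -e (L - s) := by rw [esym s h0 hL, neg_neg]
        have e4 : g s = g (L - s) := (gsym s).symm
        have e5 : deriv g s = -deriv g (L - s) := by
          have hgf : g = fun y => g (L - y) := by
            funext y
            exact (gsym y).symm
          have hstep : deriv g s = deriv (fun y => g (L - y)) s := by rw [← hgf]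
          rw [hstep]
          exact deriv_comp_const_sub (f := g) (a := L) (x := s)
        rw [e1, e2, e3, e5, e4, Du_neg']
        refine ⟨?_, ?_⟩
        · rw [neg_sq]
          exact hA1
        · rw [hA2]
          ring
  exact ⟨u, e, su, se, fun s h0 hL => (hmain s h0 hL).1, usym, esym,
    fun s h0 hL => (hmain s h0 hL).2, fun s _ h1 => ⟨uL s h1, eL s h1⟩⟩

end Vale.Agent.H55.RP
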