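import Vale.Agent.H19.Sph.Half
import Vale.Agent.H19.Sph.Bridge
import Vale.Agent.H55.RP.Mid
import Vale.Agent.H55.RP.HalfU
import Vale.Agent.H55.RP.Pieces

/-!
The global signed profile of a rotationally symmetric projective plane: the pole-side half from
`Vale.Agent.H19.Sph.exists_half` (helper19's tree), the zone around the middle circle from
`rp_mid`, glued by `rp_profile_of_pieces`.
-/

namespace Vale.Agent.H55.RP

open scoped ContDiff

theorem rp_exists_uprofile (L ε : ℝ) (g h : ℝ → ℝ) (hd : RPData L ε g h) :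
    ∃ (u e ωN QN : ℝ → ℝ) (η : ℝ), UProfile L g u e ωN QN η := by
  have hL := hd.Lpos
  obtain ⟨k, sk, hk⟩ := Vale.Agent.H19.Sph.hadamard h hd.sh
  have k0 : 0 < k 0 := by
    have dq : Differentiable ℝ k := sk.differentiable (by simp)
    have h1 : HasDerivAt (fun t : ℝ => h 0 + t * k t) (1 * k 0 + 0 * deriv k 0) 0 :=
      ((hasDerivAt_id (0 : ℝ)).mul (dq 0).hasDerivAt).const_add (h 0)
    have e : h = fun t : ℝ => h 0 + t * k t := funext hk
    rw [← e] at h1
    have h2 : k 0 = deriv h 0 := by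
      rw [h1.deriv]
      ring
    rw [h2]
    exact hd.KN
  have gN : ∀ s, |s| < ε → g s = Vale.Agent.H19.Sph.gvG k s := by
    intro s hs
    rw [hd.gN s hs, hk (s ^ 2), hd.h0]
    rfl
  -- the pole-side half
  obtain ⟨Wt, Q, τ, cN, C₀, hG, hC⟩ :=
    Vale.Agent.H19.Sph.exists_half g k ε (L / 4) (L / 2) hd.εpos (by linarith) (by linarith)
      hd.sg sk gN k0 (fun s hs hsM => hd.gpos s hs (by linarith))
      (fun s hs hsM => hd.slope s hs (by linarith))
  -- the zone around the middle circle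
  set γ : ℝ → ℝ := fun x => g (L / 2 - x) with hγ
  have sγ : ContDiff ℝ ∞ γ := hd.sg.comp (contDiff_const.sub contDiff_id)
  have eγ : ∀ x, γ (-x) = γ x := by
    intro x
    show g (L / 2 - -x) = g (L / 2 - x)
    have h1 := hd.sym (L / 2 - x)
    rw [show L - (L / 2 - x) = L / 2 - -x by ring] at h1
    exact h1
  have γ0 : 0 < γ 0 := by
    show 0 < g (L / 2 - 0)
    rw [sub_zero]
    exact hd.gpos _ (by linarith) (by linarith)
  obtain ⟨U, E, a, b, C, ha, hab, hb, hCC, sU, sE, oU, oE, hU1, hUD, hEpos, hUJ⟩ :=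
    rp_mid γ sγ eγ γ0 (L / 4) C₀ (by linarith)
  obtain ⟨w, s0, hs0, hs0m, hs0ε, hs0τ, sw, hw, hwN, hwJ⟩ := hC C hCC
  obtain ⟨uA, eA, suA, seA, hA⟩ := rp_half_u g w (L / 2) hd.sg sw hw
  have dγ : ∀ x, deriv γ x = -deriv g (L / 2 - x) := by
    intro x
    show deriv (fun x => g (L / 2 - x)) x = _
    exact deriv_comp_const_sub g (L / 2) x
  obtain ⟨u, e, su, se, hu1, husym, hesym, huD, hloc⟩ :=
    rp_profile_of_pieces L a b g uA eA U E ha hab (by linarith) hd.sg hd.sym suA seA
      (fun s hs => ⟨(hA s hs).1, (hA s hs).2.1, (hA s hs).2.2.1, (hA s hs).2.2.2.2.1⟩)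
      sU sE oU oE hU1
      (fun x hx => by
        have h1 := hUD x hx
        rw [dγ x] at h1
        exact h1)
      hEpos
      (fun s hs1 hs2 => by
        have hx1 : a ≤ L / 2 - s := by linarith
        have hx2 : L / 2 - s ≤ b := by linarith
        have h1 := hUJ (L / 2 - s) hx1 hx2
        have h2 : γ (L / 2 - s) = g s := by
          show g (L / 2 - (L / 2 - s)) = g s
          rw [sub_sub_cancel]
        rw [h2] at h1
        have hsI : s ∈ Set.Ioo 0 (L / 2) := ⟨by linarith, by linarith⟩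
        rw [(hA s hsI).2.2.2.1, hwJ s (by linarith) (by linarith), h1])
  -- the pole germ
  have hlt : ∀ s, 0 < s → s ^ 2 < s0 ^ 2 → s < s0 := fun s hs h => by
    by_contra hcon
    push Not at hcon
    nlinarith
  have hI : ∀ s, 0 < s → s < s0 → s ∈ Set.Ioo 0 (L / 2) := fun s hs hss0 =>
    ⟨hs, by linarith⟩
  have hnear : ∀ s, 0 < s → s < s0 → u =ᶠ[nhds s] uA ∧ e =ᶠ[nhds s] eA := fun s hs hss0 =>
    hloc s hs (by linarith)
  have evN : ∀ s, 0 < s → s < s0 → ∀ᶠ x in nhds s, g x = Vale.Agent.H19.Sph.gvG k x :=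
    fun s hs hss0 => by
      have hmem : {x : ℝ | |x| < ε} ∈ nhds s :=
        (isOpen_lt continuous_abs continuous_const).mem_nhds
          (by show |s| < ε; rw [abs_of_pos hs]; linarith)
      exact Filter.mem_of_superset hmem (fun x hx => gN x hx)
  have evNw : ∀ s, 0 < s → s < s0 → ∀ᶠ x in nhds s, w x = Vale.Agent.H19.Sph.wG Wt x :=
    fun s hs hss0 => by
      have hmem : Set.Ioo (0 : ℝ) s0 ∈ nhds s := isOpen_Ioo.mem_nhds ⟨hs, hss0⟩
      exact Filter.mem_of_superset hmem (fun x hx => hwN x hx.1 hx.2)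
  have memN : ∀ t : ℝ, |t| < s0 ^ 2 → t ∈ Set.Ioo (-τ) τ := fun t ht => by
    have := abs_lt.mp ht
    exact ⟨by linarith, by linarith⟩
  refine ⟨u, e, Wt, Q, s0 ^ 2, ?_⟩
  exact
    { ηpos := by positivity
      su := su
      se := se
      u1 := hu1
      usym := husym
      esym := hesym
      hD := huD
      sωN := hG.sWt.contDiffOn
      sQN := hG.sQ.mono (Set.Ioo_subset_Ioo (by linarith) hs0τ.le)
      posN := fun t ht => ⟨hG.Wpos t (memN t ht), hG.Qpos t (memN t ht), hG.Wlt t (memN t ht)⟩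
      uN := fun s hs hsη => by
        have hss0 := hlt s hs hsη
        obtain ⟨hu', he'⟩ := hnear s hs hss0
        obtain ⟨p1, -, p3, p4, -, -⟩ := hA s (hI s hs hss0)
        obtain ⟨w0, w1, -⟩ := hw s (hI s hs hss0)
        rw [hu'.self_of_nhds, he'.self_of_nhds]
        refine ⟨p1, p3, ?_⟩
        rw [p4, Real.sq_sqrt (by linarith), hwN s hs hss0]
        show 1 - (1 - s ^ 2 * Wt (s ^ 2)) = s ^ 2 * Wt (s ^ 2)
        ring
      DN := fun s hs hsη => by
        have hss0 := hlt s hs hsη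
        obtain ⟨hu', he'⟩ := hnear s hs hss0
        obtain ⟨-, -, -, -, -, p6⟩ := hA s (hI s hs hss0)
        rw [hu'.self_of_nhds, hu'.deriv_eq, p6]
        exact Vale.Agent.H19.Sph.Dex_eq_of_germ' k Wt Q τ cN sk hG g w s hs
          (lt_trans hsη hs0τ) (evN s hs hss0) (evNw s hs hss0) }

end Vale.Agent.H55.RP
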