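import Vale.Agent.H55.RP.Main

/-!
The projective-plane theorem with the symmetry `g (L - s) = g s` assumed only on `[0, L]`:
the profile is replaced by `gt s = g s` for `s ≤ L / 2`, `gt s = g (L - s)` for `L / 2 < s`, which
agrees with `g` on `(-∞, L)` and is symmetric on the whole line.
-/

namespace Vale.Agent.H55.RP

open scoped ContDiff

theorem rp_immersion_weak (L ε : ℝ) (g h : ℝ → ℝ) (hL : 0 < L) (hε : 0 < ε)
    (sg : ContDiff ℝ ∞ g) (sh : ContDiff ℝ ∞ h) (gN : ∀ s, |s| < ε → g s = s * h (s ^ 2))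
    (h0 : h 0 = 1) (sym : ∀ s, 0 ≤ s → s ≤ L → g (L - s) = g s)
    (gpos : ∀ s, 0 < s → s < L → 0 < g s) (KN : 0 < deriv h 0)
    (slope : ∀ s, 0 ≤ s → s ≤ L → |deriv g s| < 2) : RPImm L g := by
  classical
  set gt : ℝ → ℝ := fun s => if s ≤ L / 2 then g s else g (L - s) with hgt
  have eqL : ∀ y, y < L → gt y = g y := by
    intro y hy
    by_cases h1 : y ≤ L / 2
    · simp only [hgt, if_pos h1]
    · simp only [hgt, if_neg h1]
      exact sym y (by linarith [not_le.mp h1]) hy.le
  have eqR : ∀ y, L / 2 < y → gt y = g (L - y) := by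
    intro y hy
    simp only [hgt, if_neg (not_le.mpr hy)]
  have evL : ∀ s, s < L → gt =ᶠ[nhds s] g := fun s hs =>
    Filter.mem_of_superset (Iio_mem_nhds hs) (fun y hy => eqL y hy)
  have evR : ∀ s, L / 2 < s → gt =ᶠ[nhds s] fun y => g (L - y) := fun s hs =>
    Filter.mem_of_superset (Ioi_mem_nhds hs) (fun y hy => eqR y hy)
  have sgt : ContDiff ℝ ∞ gt := by
    rw [contDiff_iff_contDiffAt]
    intro s
    by_cases hs : s < L
    · exact (sg.contDiffAt).congr_of_eventuallyEq (evL s hs)
    · have hs' : L / 2 < s := by linarith [not_lt.mp hs]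
      have h1 : ContDiff ℝ ∞ (fun y => g (L - y)) := sg.comp (contDiff_const.sub contDiff_id)
      exact (h1.contDiffAt).congr_of_eventuallyEq (evR s hs')
  have symt : ∀ s, gt (L - s) = gt s := by
    intro s
    rcases lt_trichotomy s (L / 2) with h1 | h1 | h1
    · rw [eqR (L - s) (by linarith), sub_sub_cancel]
      simp only [hgt, if_pos h1.le]
    · rw [h1]
      congr 1
      ring
    · rw [eqR s h1]
      simp only [hgt, if_pos (show L - s ≤ L / 2 by linarith)]
  have hdata : RPData L (min ε (L / 2)) gt h :=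
    { Lpos := hL
      εpos := lt_min hε (by linarith)
      sg := sgt
      sh := sh
      gN := fun s hs => by
        have h1 : |s| < ε := lt_of_lt_of_le hs (min_le_left _ _)
        have h2 : |s| < L / 2 := lt_of_lt_of_le hs (min_le_right _ _)
        have h3 : s < L := by linarith [le_abs_self s]
        rw [eqL s h3]
        exact gN s h1
      h0 := h0
      sym := symt
      gpos := fun s hs hsL => by
        rw [eqL s hsL]
        exact gpos s hs hsL
      KN := KN
      slope := fun s hs hsL => by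
        rcases lt_or_eq_of_le hsL with h1 | h1
        · rw [(evL s h1).deriv_eq]
          exact slope s hs hsL
        · have h2 : L / 2 < s := by linarith
          rw [(evR s h2).deriv_eq, deriv_comp_const_sub, abs_neg, h1, sub_self]
          exact slope 0 le_rfl hL.le }
  obtain ⟨Φ, ΨN, ΨS, δ, hδ, c1, c2, c3, c4, c5, c6, c7, c8, c9, c10⟩ :=
    rp_immersion L _ gt h hdata
  refine ⟨Φ, ΨN, ΨS, δ, hδ, c1, c2, c3, ?_, c5, c6, c7, c8, c9, c10⟩
  intro p hp0 hpL
  have h1 := c4 p hp0 hpL
  rw [eqL p.1 hpL] at h1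
  exact h1

end Vale.Agent.H55.RP
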