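import Vale.Agent.H55.RP.Defs

/-!
ROW RP-Z-ALG (both statements proved, statements kept exactly; helper lemmas: fresh names
with stem `rpa_` in this file).  Two algebraic identities.  Abbreviate `s = sin θ`, `c = cos θ`
(`s² + c² = 1`), `G = γ x`, `G' = deriv γ x`,
`A = KB.Acoef γ 1 2 x θ = G² (c² / 1² + s² / 2²)`, `B = KB.Bcoef γ 1 2 x θ = G G' s c (1/1² - 1/2²)`,
`C = KB.Ccoef γ 1 2 x θ = G'² (s² / 1² + c² / 2²)`, `KB.Qform_eq : Qform = A p² + 2 B p + C`.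

* `rp_deficit`: with `p = rpV γ ζ ν x θ = (-B + (1 - ν²) R) / A` (`ζ x = 1`), `R = rpR γ x θ`,
  `R² = B² + A (1 - C)` (`Real.sq_sqrt`; the radicand equals `A - G² G'² / 4 ≥ G²/4 - G²/16 ≥ 0`
  because `(c² + s²/4)(s² + c²/4) - (9/16) s² c² = (s² + c²)² / 4 = 1/4`):
  `A p + B = (1 - ν²) R`, so `A p² + 2 B p = ((1 - ν²)² R² - B²) / A` and
  `1 - Qform = (R² / A) (1 - (1 - ν²)²) = (R² / A) ν² (2 - ν²)`, and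
  `R² / A = 1 - G'² / (4 c² + s²) = 1 - G'² / (1 + 3 c²)`.
* `rp_Du_sin`: unfold `Du`, `KB.Qform`; `1 - s² = c² ≠ 0`; `field_simp`, then `ring` /
  `linear_combination` with `s² + c² = 1`.
-/

namespace Vale.Agent.H55.RP

open scoped ContDiff

theorem rp_deficit (γ ζ ν : ℝ → ℝ) (x θ : ℝ) (hγ : 0 < γ x) (hd : |deriv γ x| ≤ 1 / 2)
    (hζ : ζ x = 1) :
    1 - KB.Qform γ 1 2 x θ (rpV γ ζ ν x θ)
      = ν x ^ 2 * ((2 - ν x ^ 2) * (1 - deriv γ x ^ 2 / (1 + 3 * Real.cos θ ^ 2))) := by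
  obtain ⟨s, hs⟩ : ∃ s : ℝ, s = Real.sin θ := ⟨_, rfl⟩
  obtain ⟨c, hc⟩ : ∃ c : ℝ, c = Real.cos θ := ⟨_, rfl⟩
  have hsc : s ^ 2 + c ^ 2 = 1 := by rw [hs, hc]; exact Real.sin_sq_add_cos_sq θ
  obtain ⟨G, hG⟩ : ∃ G : ℝ, G = γ x := ⟨_, rfl⟩
  obtain ⟨G', hG'⟩ : ∃ G' : ℝ, G' = deriv γ x := ⟨_, rfl⟩
  obtain ⟨N, hN⟩ : ∃ N : ℝ, N = ν x := ⟨_, rfl⟩
  have hAval : KB.Acoef γ 1 2 x θ = G ^ 2 * (c ^ 2 + s ^ 2 / 4) := by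
    unfold KB.Acoef
    rw [hG, hs, hc]
    ring
  have hBval : KB.Bcoef γ 1 2 x θ = 3 / 4 * G * G' * s * c := by
    unfold KB.Bcoef
    rw [hG, hG', hs, hc]
    ring
  have hCval : KB.Ccoef γ 1 2 x θ = G' ^ 2 * (s ^ 2 + c ^ 2 / 4) := by
    unfold KB.Ccoef
    rw [hG', hs, hc]
    ring
  have hG0 : 0 < G := by rw [hG]; exact hγ
  have hG'2 : G' ^ 2 ≤ 1 / 4 := by
    have h := abs_le.mp hd
    rw [hG']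
    nlinarith [h.1, h.2]
  have hc2 : 0 ≤ c ^ 2 := sq_nonneg c
  have hs2 : 0 ≤ s ^ 2 := sq_nonneg s
  have hApos : 0 < G ^ 2 * (c ^ 2 + s ^ 2 / 4) :=
    mul_pos (pow_pos hG0 2) (by linarith)
  have hrad : KB.Bcoef γ 1 2 x θ ^ 2 + KB.Acoef γ 1 2 x θ * (1 - KB.Ccoef γ 1 2 x θ)
      = G ^ 2 * (c ^ 2 + s ^ 2 / 4 - G' ^ 2 / 4) := by
    rw [hAval, hBval, hCval]
    linear_combination (-(G ^ 2 * G' ^ 2 / 4) * (s ^ 2 + c ^ 2 + 1)) * hsc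
  have hR2 : rpR γ x θ ^ 2 = G ^ 2 * (c ^ 2 + s ^ 2 / 4 - G' ^ 2 / 4) := by
    unfold rpR
    rw [Real.sq_sqrt, hrad]
    rw [hrad]
    exact mul_nonneg (sq_nonneg G) (by linarith)
  obtain ⟨A, hA⟩ : ∃ A : ℝ, A = KB.Acoef γ 1 2 x θ := ⟨_, rfl⟩
  obtain ⟨B, hB⟩ : ∃ B : ℝ, B = KB.Bcoef γ 1 2 x θ := ⟨_, rfl⟩
  obtain ⟨Cc, hC⟩ : ∃ Cc : ℝ, Cc = KB.Ccoef γ 1 2 x θ := ⟨_, rfl⟩
  obtain ⟨R, hR⟩ : ∃ R : ℝ, R = rpR γ x θ := ⟨_, rfl⟩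
  rw [← hA, ← hB, ← hC] at hrad
  rw [← hR] at hR2
  rw [← hA] at hAval
  have hA0 : A ≠ 0 := by rw [hAval]; exact hApos.ne'
  have hrad' : B ^ 2 + A * (1 - Cc) = R ^ 2 := by rw [hrad, hR2]
  rw [KB.Qform_eq]
  unfold rpV
  rw [hζ, one_mul, ← hA, ← hB, ← hC, ← hR, ← hN, ← hc, ← hG']
  obtain ⟨q, hq⟩ : ∃ q : ℝ, q = (-B + (1 - N ^ 2) * R) / A := ⟨_, rfl⟩
  rw [← hq]
  have hp : A * q = -B + (1 - N ^ 2) * R := by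
    rw [hq]
    exact mul_div_cancel₀ _ hA0
  have e1 : A * (1 - (A * q ^ 2 + 2 * B * q + Cc)) = R ^ 2 * (1 - (1 - N ^ 2) ^ 2) := by
    linear_combination (-(A * q + B + (1 - N ^ 2) * R)) * hp + hrad'
  have h13 : (1 : ℝ) + 3 * c ^ 2 ≠ 0 := by positivity
  have hA' : A = G ^ 2 * ((1 + 3 * c ^ 2) / 4) := by
    rw [hAval]
    linear_combination (G ^ 2 / 4) * hsc
  have hR' : R ^ 2 = G ^ 2 * ((1 + 3 * c ^ 2 - G' ^ 2) / 4) := by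
    rw [hR2]
    linear_combination (G ^ 2 / 4) * hsc
  have e2 : A * (1 - G' ^ 2 / (1 + 3 * c ^ 2)) = R ^ 2 := by
    rw [hA', hR']
    field_simp
  apply mul_left_cancel₀ hA0
  rw [e1, show A * (N ^ 2 * ((2 - N ^ 2) * (1 - G' ^ 2 / (1 + 3 * c ^ 2)))) =
    N ^ 2 * (2 - N ^ 2) * (A * (1 - G' ^ 2 / (1 + 3 * c ^ 2))) by ring, e2]
  ring

theorem rp_Du_sin (γ : ℝ → ℝ) (x θ p : ℝ) (hc : Real.cos θ ≠ 0) :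
    Du (γ x) (deriv γ x) (Real.sin θ) (Real.cos θ * p) = 1 - KB.Qform γ 1 2 x θ p := by
  have hsc : Real.sin θ ^ 2 + Real.cos θ ^ 2 = 1 := Real.sin_sq_add_cos_sq θ
  have hden : 1 - Real.sin θ ^ 2 = Real.cos θ ^ 2 := by linarith
  have hc2 : Real.cos θ ^ 2 ≠ 0 := pow_ne_zero 2 hc
  have e : γ x ^ 2 * (Real.cos θ * p) ^ 2 * (4 - 3 * Real.sin θ ^ 2) / (4 * Real.cos θ ^ 2)
      = γ x ^ 2 * p ^ 2 * (4 - 3 * Real.sin θ ^ 2) / 4 := by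
    field_simp
  unfold Du KB.Qform
  rw [hden, e]
  linear_combination (deriv γ x ^ 2 / 4 + γ x ^ 2 * p ^ 2) * hsc

end Vale.Agent.H55.RP
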