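import Vale.Agent.H55.RP.Defs

/-!
ROW RP-Z-CONS (proved; the statement is kept exactly; helper lemmas: fresh names with
stem `rpc_` in this file).  The conservation law of the minimising slope field `Θ' = -B / A`:
`cos² Θ / (sin⁸ Θ γ⁶)` is constant.

Here `A = KB.Acoef γ 1 2 x θ = γ x ^ 2 * (cos θ ^ 2 / 1 ^ 2 + sin θ ^ 2 / 2 ^ 2)`,
`B = KB.Bcoef γ 1 2 x θ = γ x * deriv γ x * sin θ * cos θ * (1 / 1 ^ 2 - 1 / 2 ^ 2)`, so with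
`s = sin (Θ x)`, `c = cos (Θ x)`, `G = γ x`, `G' = deriv γ x`:
  `Θ' = -B / A = -3 G' s c / (G (4 c² + s²))`.
On `Icc a b`: `0 < Θ ≤ π/4`, so `s > 0`, `c > 0`, `G > 0`.
Let `F x = cos (Θ x) ^ 2 / (sin (Θ x) ^ 8 * γ x ^ 6)`.  Then at each `x ∈ Icc a b`, `F` has
derivative
  `[-2 c s Θ' (s⁸ G⁶) - c² (8 s⁷ c Θ' G⁶ + 6 s⁸ G⁵ G')] / (s⁸ G⁶)²`
whose numerator is `-s⁷ G⁵ c (Θ' G (2 s² + 8 c²) + 6 s c G') = 0`.  Hence `F` is constant on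
`Icc a b` (`constant_of_derivWithin_zero` or `is_const_of_deriv_eq_zero`-type lemma on the
interval, e.g. via the mean value theorem `Convex.norm_image_sub_le_of_norm_hasDerivWithin_le`
with bound `0`), `F x = F a`.
With `w = cos (Θ x) ^ 2 ∈ (0, 1)`: `Vale.Agent.H19.Sph.Lam w = w / (1 - w) ^ 4 = c² / s⁸
= F a * γ x ^ 6`, so `Vale.Agent.H19.Sph.Jinv_Lam` gives `Jinv (F a * γ x ^ 6) = c²`, and
`√(1 - c²) = √(s²) = s`.
-/

namespace Vale.Agent.H55.RP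

open scoped ContDiff

/-- The derivative of the conserved quantity vanishes. -/
theorem rpc_deriv (γ Θ : ℝ → ℝ) (y : ℝ) (sγ : ContDiff ℝ ∞ γ) (hG : 0 < γ y)
    (hs : 0 < Real.sin (Θ y)) (hc : 0 < Real.cos (Θ y))
    (hd : HasDerivAt Θ (-KB.Bcoef γ 1 2 y (Θ y) / KB.Acoef γ 1 2 y (Θ y)) y) :
    HasDerivAt (fun z => Real.cos (Θ z) ^ 2 / (Real.sin (Θ z) ^ 8 * γ z ^ 6)) 0 y := by
  obtain ⟨T, hTdef⟩ : ∃ T : ℝ, T = -KB.Bcoef γ 1 2 y (Θ y) / KB.Acoef γ 1 2 y (Θ y) := ⟨_, rfl⟩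
  rw [← hTdef] at hd
  have hq : 4 * Real.cos (Θ y) ^ 2 + Real.sin (Θ y) ^ 2 ≠ 0 := by positivity
  have hG0 : γ y ≠ 0 := hG.ne'
  have hT : T * (γ y * (4 * Real.cos (Θ y) ^ 2 + Real.sin (Θ y) ^ 2))
      = -(3 * deriv γ y * Real.sin (Θ y) * Real.cos (Θ y)) := by
    have hA : KB.Acoef γ 1 2 y (Θ y)
        = γ y ^ 2 * ((4 * Real.cos (Θ y) ^ 2 + Real.sin (Θ y) ^ 2) / 4) := by
      unfold KB.Acoef
      ring
    have hB : KB.Bcoef γ 1 2 y (Θ y)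
        = γ y * deriv γ y * Real.sin (Θ y) * Real.cos (Θ y) * (3 / 4) := by
      unfold KB.Bcoef
      ring
    rw [hTdef, hA, hB]
    field_simp
  have hγ : HasDerivAt γ (deriv γ y) y := ((sγ.differentiable (by simp)) y).hasDerivAt
  have hnum := (hd.cos).pow 2
  have hden := ((hd.sin).pow 8).mul (hγ.pow 6)
  have hden0 : Real.sin (Θ y) ^ 8 * γ y ^ 6 ≠ 0 := by positivity
  have h := hnum.div hden hden0
  refine HasDerivAt.congr_deriv h ?_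
  simp only [Pi.pow_apply, Pi.mul_apply]
  rw [div_eq_zero_iff]
  left
  norm_num
  linear_combination (-2 * Real.sin (Θ y) ^ 7 * γ y ^ 5 * Real.cos (Θ y)) * hT

theorem rp_conservation (γ Θ : ℝ → ℝ) (a b : ℝ) (hab : a ≤ b) (sγ : ContDiff ℝ ∞ γ)
    (γpos : ∀ x ∈ Set.Icc a b, 0 < γ x)
    (hΘ : ∀ x ∈ Set.Icc a b, 0 < Θ x ∧ Θ x ≤ Real.pi / 4)
    (hd : ∀ x ∈ Set.Icc a b,
      HasDerivAt Θ (-KB.Bcoef γ 1 2 x (Θ x) / KB.Acoef γ 1 2 x (Θ x)) x) :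
    ∀ x ∈ Set.Icc a b, Real.sin (Θ x)
      = √(1 - Vale.Agent.H19.Sph.Jinv
          (Real.cos (Θ a) ^ 2 / (Real.sin (Θ a) ^ 8 * γ a ^ 6) * γ x ^ 6)) := by
  intro x hx
  have hsc : ∀ y ∈ Set.Icc a b, 0 < Real.sin (Θ y) ∧ 0 < Real.cos (Θ y) := by
    intro y hy
    obtain ⟨h1, h2⟩ := hΘ y hy
    have hpi := Real.pi_pos
    exact ⟨Real.sin_pos_of_pos_of_lt_pi h1 (by linarith),
      Real.cos_pos_of_mem_Ioo ⟨by linarith, by linarith⟩⟩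
  obtain ⟨F, hF⟩ : ∃ F : ℝ → ℝ,
      F = fun z => Real.cos (Θ z) ^ 2 / (Real.sin (Θ z) ^ 8 * γ z ^ 6) := ⟨_, rfl⟩
  have hder : ∀ y ∈ Set.Icc a b, HasDerivAt F 0 y := by
    intro y hy
    rw [hF]
    exact rpc_deriv γ Θ y sγ (γpos y hy) (hsc y hy).1 (hsc y hy).2 (hd y hy)
  have hcont : ContinuousOn F (Set.Icc a b) := fun y hy =>
    (hder y hy).continuousAt.continuousWithinAt
  have hconst : F x = F a := constant_of_has_deriv_right_zero hcont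
    (fun y hy => (hder y (Set.Ico_subset_Icc_self hy)).hasDerivWithinAt) x hx
  obtain ⟨hs, hc⟩ := hsc x hx
  have hG := γpos x hx
  have h1 : 1 - Real.cos (Θ x) ^ 2 = Real.sin (Θ x) ^ 2 := by
    linarith [Real.sin_sq_add_cos_sq (Θ x)]
  have hw0 : 0 < Real.cos (Θ x) ^ 2 := by positivity
  have hw1 : Real.cos (Θ x) ^ 2 < 1 := by
    have : 0 < Real.sin (Θ x) ^ 2 := by positivity
    linarith
  have hLam : Vale.Agent.H19.Sph.Lam (Real.cos (Θ x) ^ 2)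
      = Real.cos (Θ a) ^ 2 / (Real.sin (Θ a) ^ 8 * γ a ^ 6) * γ x ^ 6 := by
    have e1 : F a = Real.cos (Θ a) ^ 2 / (Real.sin (Θ a) ^ 8 * γ a ^ 6) := by rw [hF]
    have e2 : F x = Real.cos (Θ x) ^ 2 / (Real.sin (Θ x) ^ 8 * γ x ^ 6) := by rw [hF]
    rw [← e1, ← hconst, e2]
    unfold Vale.Agent.H19.Sph.Lam
    rw [h1]
    field_simp
  rw [← hLam, Vale.Agent.H19.Sph.Jinv_Lam hw0 hw1, h1, Real.sqrt_sq hs.le]

end Vale.Agent.H55.RP
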