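import Mathlib
import Vale.Agent.H55.KB.Bdd

/-!
ROW RP-Z-LIP (replace the `sorry`, keep the statement exactly; helper lemmas: fresh names with
stem `rpl_` in this file).  Variant of `KB.exists_bound_lipschitz`
(`Vale/Agent/H55/KB/Bdd.lean`, whose proof may be copied and adapted): instead of periodicity in
`x` the function vanishes for `1 ≤ |x|`.

Put `F' = fun q : ℝ × ℝ => F q.1 q.2` and `D x θ = fderiv ℝ F' (x, θ) (0, 1)`; `θ ↦ F x θ` has
derivative `D x θ` (chain rule with `θ ↦ (x, θ)`), and `q ↦ D q.1 q.2` is continuous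
(`hF.continuous_fderiv`).  `D x (θ + π) = D x θ` (as in `KB.exists_bound_lipschitz`).  For
`1 < |x|` the function `F'` vanishes on a neighbourhood of `(x, θ)`, so `D x θ = 0`; alternatively
avoid this: for `1 ≤ |x|` the claimed inequality is trivial (`F x θ₁ = F x θ₂ = 0`), so only
`|x| ≤ 1` matters.  `D` is bounded by some `K` on the compact set `Icc (-1) 1 ×ˢ Icc 0 π`, hence
(periodicity in `θ`) on `Icc (-1) 1 ×ˢ univ`; conclude for `|x| ≤ 1` with the mean value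
inequality (`Convex.norm_image_sub_le_of_norm_deriv_le` on `Set.univ`, function `θ ↦ F x θ`).
-/

namespace Vale.Agent.H55.RP

open scoped ContDiff

/-- A continuous function of two variables, periodic in the second one, is bounded on the strip
`|x| ≤ 1`. -/
lemma rpl_bound (H : ℝ → ℝ → ℝ) (hH : Continuous (fun q : ℝ × ℝ => H q.1 q.2))
    (p2 : ∀ x θ, H x (θ + Real.pi) = H x θ) :
    ∃ M : ℝ, 0 < M ∧ ∀ x θ, |x| ≤ 1 → |H x θ| ≤ M := by
  have hK : IsCompact (Set.Icc (-1 : ℝ) 1 ×ˢ Set.Icc (0 : ℝ) Real.pi) :=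
    isCompact_Icc.prod isCompact_Icc
  obtain ⟨C, hC⟩ := hK.exists_bound_of_continuousOn hH.continuousOn
  refine ⟨max C 1, lt_of_lt_of_le one_pos (le_max_right _ _), fun x θ hx => ?_⟩
  have per2 : Function.Periodic (fun θ => H x θ) Real.pi := fun θ => p2 x θ
  obtain ⟨θ', hθ', hθθ'⟩ := per2.exists_mem_Ico₀ Real.pi_pos θ
  have h1 : H x θ = H x θ' := hθθ'
  have hmem : ((x, θ') : ℝ × ℝ) ∈ Set.Icc (-1 : ℝ) 1 ×ˢ Set.Icc (0 : ℝ) Real.pi :=
    ⟨abs_le.1 hx, ⟨hθ'.1, hθ'.2.le⟩⟩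
  have h2 := hC (x, θ') hmem
  rw [Real.norm_eq_abs] at h2
  rw [h1]
  exact le_trans h2 (le_max_left _ _)

theorem rp_lipschitz (F : ℝ → ℝ → ℝ)
    (hF : ContDiff ℝ ∞ (fun q : ℝ × ℝ => F q.1 q.2))
    (p2 : ∀ x θ, F x (θ + Real.pi) = F x θ) (hsupp : ∀ x θ, 1 ≤ |x| → F x θ = 0) :
    ∃ K : ℝ, 0 ≤ K ∧ ∀ x θ₁ θ₂, |F x θ₁ - F x θ₂| ≤ K * |θ₁ - θ₂| := by
  set F' : ℝ × ℝ → ℝ := fun q => F q.1 q.2 with hF'
  set D : ℝ → ℝ → ℝ := fun x θ => fderiv ℝ F' (x, θ) (0, 1) with hD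
  have hDc : Continuous (fun q : ℝ × ℝ => D q.1 q.2) := by
    have h1 : Continuous (fun q : ℝ × ℝ => fderiv ℝ F' q) := hF.continuous_fderiv (by simp)
    exact h1.clm_apply continuous_const
  have hper : ∀ a : ℝ × ℝ, (∀ q, F' (q + a) = F' q) →
      ∀ q, fderiv ℝ F' (q + a) = fderiv ℝ F' q := by
    intro a ha q
    have h : (fun y => F' (y + a)) = F' := funext ha
    have h2 : fderiv ℝ (fun y => F' (y + a)) q = fderiv ℝ F' (q + a) := fderiv_comp_add_right a
    rw [h] at h2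
    exact h2.symm
  have hD2 : ∀ x θ, D x (θ + Real.pi) = D x θ := by
    intro x θ
    have h := hper (0, Real.pi) (fun q => by
      simp only [hF', Prod.fst_add, Prod.snd_add, add_zero]
      exact p2 q.1 q.2) (x, θ)
    simp only [hD]
    have e : ((x, θ) : ℝ × ℝ) + (0, Real.pi) = (x, θ + Real.pi) := by simp
    rw [← e, h]
  obtain ⟨K, hK, hKb⟩ := rpl_bound D hDc hD2
  have hder : ∀ x θ, HasDerivAt (fun θ => F x θ) (D x θ) θ := by
    intro x θ
    have h1 : HasFDerivAt F' (fderiv ℝ F' (x, θ)) (x, θ) :=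
      (hF.differentiable (by simp) (x, θ)).hasFDerivAt
    have h2 : HasDerivAt (fun θ : ℝ => ((x, θ) : ℝ × ℝ)) ((0, 1) : ℝ × ℝ) θ :=
      (hasDerivAt_const θ x).prodMk (hasDerivAt_id θ)
    exact h1.comp_hasDerivAt θ h2
  refine ⟨K, hK.le, fun x θ₁ θ₂ => ?_⟩
  rcases le_or_gt 1 |x| with hx | hx
  · rw [hsupp x θ₁ hx, hsupp x θ₂ hx, sub_self, abs_zero]
    exact mul_nonneg hK.le (abs_nonneg _)
  · have h := Convex.norm_image_sub_le_of_norm_deriv_le (f := fun θ => F x θ) (C := K)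
      (s := Set.univ) (x := θ₂) (y := θ₁)
      (fun θ _ => (hder x θ).differentiableAt)
      (fun θ _ => by
        rw [(hder x θ).deriv, Real.norm_eq_abs]
        exact hKb x θ hx.le)
      convex_univ (Set.mem_univ _) (Set.mem_univ _)
    rw [Real.norm_eq_abs, Real.norm_eq_abs] at h
    exact h

end Vale.Agent.H55.RP
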