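import Vale.Agent.H55.RP.ZonePos

/-!
ROW RP-Z-THETA.  Qualitative facts about a solution `Θ` of `Θ' = V(x, Θ)`, `Θ 0 = 0`.

* `0 < Θ x` for `0 < x ≤ r`: the derivative is positive on `Icc 0 r`, so `Θ` is strictly
  increasing there, and `Θ 0 = 0`.
* `0 < Θ x` for `r < x`: `rp_pos_of_deriv_ge Θ (fun y => V y (Θ y)) r x K` with `0 < Θ r`.
* `Θ x ≤ M * x` for `0 ≤ x`: `x ↦ M * x - Θ x` has nonnegative derivative, hence is monotone.
* `Θ x ≤ M * β` for `0 ≤ x`: if `x ≤ β` by the previous item; if `β ≤ x` then `Θ` has zero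
  derivative on `Icc β x`, so `Θ x = Θ β ≤ M * β`.
-/

namespace Vale.Agent.H55.RP

theorem rpt_le_mul (V : ℝ → ℝ → ℝ) (Θ : ℝ → ℝ) (M : ℝ) (h0 : Θ 0 = 0)
    (hd : ∀ x, HasDerivAt Θ (V x (Θ x)) x) (hVM : ∀ x θ, |V x θ| ≤ M) :
    ∀ x, 0 ≤ x → Θ x ≤ M * x := by
  intro x hx
  have hg : ∀ y, HasDerivAt (fun y => M * y - Θ y) (M * 1 - V y (Θ y)) y := by
    intro y
    exact ((hasDerivAt_id y).const_mul M).sub (hd y)
  have hmono : Monotone (fun y => M * y - Θ y) := by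
    apply monotone_of_deriv_nonneg
    · intro y
      exact (hg y).differentiableAt
    · intro y
      rw [(hg y).deriv]
      have h1 := hVM y (Θ y)
      have h2 := le_abs_self (V y (Θ y))
      linarith
  have h := hmono hx
  simp only [mul_zero, h0, sub_zero] at h
  linarith

theorem rp_theta_props (V : ℝ → ℝ → ℝ) (Θ : ℝ → ℝ) (M K β r : ℝ) (hβ : 0 < β) (hr : 0 < r)
    (hK : 0 ≤ K) (h0 : Θ 0 = 0) (hd : ∀ x, HasDerivAt Θ (V x (Θ x)) x)
    (hVM : ∀ x θ, |V x θ| ≤ M) (hsupp : ∀ x θ, β ≤ |x| → V x θ = 0)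
    (hpos : ∀ x θ, |x| ≤ r → 0 < V x θ) (hlow : ∀ x θ, -(K * |θ|) ≤ V x θ) :
    (∀ x, 0 < x → 0 < Θ x) ∧ (∀ x, 0 ≤ x → Θ x ≤ M * x) ∧ (∀ x, 0 ≤ x → Θ x ≤ M * β) := by
  have hM : 0 ≤ M := le_trans (abs_nonneg _) (hVM 0 0)
  have hcont : Continuous Θ :=
    continuous_iff_continuousAt.2 (fun x => (hd x).continuousAt)
  have hle := rpt_le_mul V Θ M h0 hd hVM
  -- positivity on `(0, r]`
  have hsm : StrictMonoOn Θ (Set.Icc 0 r) := by
    apply strictMonoOn_of_deriv_pos (convex_Icc 0 r) hcont.continuousOn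
    intro x hx
    rw [interior_Icc] at hx
    rw [(hd x).deriv]
    apply hpos
    rw [abs_of_pos hx.1]
    exact hx.2.le
  have hposr : ∀ x, 0 < x → x ≤ r → 0 < Θ x := by
    intro x hx hxr
    have h := hsm (Set.left_mem_Icc.2 hr.le) ⟨hx.le, hxr⟩ hx
    rw [h0] at h
    exact h
  refine ⟨?_, hle, ?_⟩
  · intro x hx
    rcases le_or_gt x r with hxr | hxr
    · exact hposr x hx hxr
    · exact rp_pos_of_deriv_ge Θ (fun y => V y (Θ y)) r x K hxr.le hK (fun y _ => hd y)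
        (fun y _ => hlow y (Θ y)) (hposr r hr le_rfl)
  · intro x hx
    rcases le_or_gt x β with hxβ | hxβ
    · exact le_trans (hle x hx) (mul_le_mul_of_nonneg_left hxβ hM)
    · have hconst : ∀ y ∈ Set.Icc β x, Θ y = Θ β := by
        apply constant_of_has_deriv_right_zero hcont.continuousOn
        intro y hy
        have hy0 : V y (Θ y) = 0 := by
          apply hsupp
          rw [abs_of_pos (lt_of_lt_of_le hβ hy.1)]
          exact hy.1
        have h := (hd y).hasDerivWithinAt (s := Set.Ici y)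
        rw [hy0] at h
        exact h
      rw [hconst x ⟨hxβ.le, le_rfl⟩]
      exact hle β hβ.le

end Vale.Agent.H55.RP
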