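import Vale.Agent.H55.RP.Defs

/-!
ROW RP-Z-V (done: the five statements are proved as stated; helper lemmas: fresh names with
stem `rpv_` in this file).  Pointwise facts about the slope field
`rpV γ ζ ν x θ = ζ x * (-B + (1 - ν x ^ 2) * R) / A`, `R = rpR γ x θ = √(B² + A (1 - C))`, where
`A = KB.Acoef γ 1 2 x θ = γ x ^ 2 * (cos θ ^ 2 / 1 ^ 2 + sin θ ^ 2 / 2 ^ 2)`,
`B = KB.Bcoef γ 1 2 x θ = γ x * deriv γ x * sin θ * cos θ * (1 / 1 ^ 2 - 1 / 2 ^ 2)`,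
`C = KB.Ccoef γ 1 2 x θ = deriv γ x ^ 2 * (sin θ ^ 2 / 1 ^ 2 + cos θ ^ 2 / 2 ^ 2)`.
Write `G = γ x ≥ m0 > 0`, `|deriv γ x| ≤ 1/2`.

Facts: `G² / 4 ≤ A ≤ G²`; `|B| ≤ (3/8) G |sin θ| ≤ (3/8) G`; `0 ≤ C ≤ 1/4`;
`0 ≤ R ≤ |B| + √A ≤ (3/8) G + G` (`√(a² + b) ≤ |a| + √b`), and `R > |B|` (radicand `> B²`).
* `rp_V_bound`: `|rpV| ≤ (|B| + R) / A ≤ ((3/8) G + (3/8) G + G) / (G² / 4) = 7 / G ≤ 7 / m0`
  (`0 ≤ ζ ≤ 1`, `0 ≤ 1 - ν² ≤ 1`).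
* `rp_V_lower`: `rpV ≥ -|B| / A ≥ -((3/8) G |sin θ|) / (G² / 4) = -(3/2) |sin θ| / G
  ≥ -(2 / m0) * |θ|` (`|sin θ| ≤ |θ|`); if the bracket `-B + (1 - ν²) R` is `≥ 0` the value is
  `≥ 0`, otherwise multiply by `ζ ≤ 1`.
* `rp_V_pos`: `ζ x = 1`, `ν x = 0`: `rpV = (-B + R) / A > 0` since `R > |B| ≥ B`.
* `rp_V_sym`: `γ` even gives `deriv γ (-x) = -deriv γ x` (`deriv_comp_neg`); `A, C` are invariant
  under the map `x ↦ -x`, `θ ↦ -θ`, and so is `B`.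
* `rp_V_periodic`: `sin (θ + π) = -sin θ`, `cos (θ + π) = -cos θ`.
-/

namespace Vale.Agent.H55.RP

open scoped ContDiff

theorem rpv_deriv_neg (γ : ℝ → ℝ) (eγ : ∀ x, γ (-x) = γ x) (x : ℝ) :
    deriv γ (-x) = -deriv γ x := by
  have h : (fun y => γ (-y)) = γ := funext eγ
  have h2 := deriv_comp_neg γ x
  rw [h] at h2
  linarith

theorem rpv_facts (γ : ℝ → ℝ) (m0 M0 : ℝ) (hz : ZData γ m0 M0) (x θ : ℝ) :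
    0 < γ x ∧ γ x ^ 2 / 4 ≤ KB.Acoef γ 1 2 x θ ∧ KB.Acoef γ 1 2 x θ ≤ γ x ^ 2 ∧
      |KB.Bcoef γ 1 2 x θ| ≤ 3 / 8 * γ x * |Real.sin θ| ∧
      0 ≤ KB.Ccoef γ 1 2 x θ ∧ KB.Ccoef γ 1 2 x θ ≤ 1 / 4 := by
  have hG : 0 < γ x := lt_of_lt_of_le hz.m0pos (hz.lo x)
  have hsc := Real.sin_sq_add_cos_sq θ
  have hs0 := sq_nonneg (Real.sin θ)
  have hc0 := sq_nonneg (Real.cos θ)
  have hG2 := sq_nonneg (γ x)
  have hd := hz.dγ x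
  have hd2 : deriv γ x ^ 2 ≤ 1 / 4 := by
    have h1 := abs_le.mp hd
    nlinarith [h1.1, h1.2]
  have hd0 := sq_nonneg (deriv γ x)
  refine ⟨hG, ?_, ?_, ?_, ?_, ?_⟩
  · have e : KB.Acoef γ 1 2 x θ = γ x ^ 2 * (1 - 3 / 4 * Real.sin θ ^ 2) := by
      have hc : Real.cos θ ^ 2 = 1 - Real.sin θ ^ 2 := by linarith
      unfold KB.Acoef
      rw [hc]
      ring
    rw [e]
    nlinarith [mul_nonneg hG2 hc0]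
  · have e : KB.Acoef γ 1 2 x θ = γ x ^ 2 * (1 - 3 / 4 * Real.sin θ ^ 2) := by
      have hc : Real.cos θ ^ 2 = 1 - Real.sin θ ^ 2 := by linarith
      unfold KB.Acoef
      rw [hc]
      ring
    rw [e]
    nlinarith [mul_nonneg hG2 hs0]
  · have hB : KB.Bcoef γ 1 2 x θ
        = 3 / 4 * (γ x * (deriv γ x * Real.cos θ) * Real.sin θ) := by
      unfold KB.Bcoef
      ring
    rw [hB, abs_mul, abs_mul, abs_mul, abs_mul, abs_of_pos hG,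
      abs_of_pos (by norm_num : (0 : ℝ) < 3 / 4)]
    have h2 := Real.abs_cos_le_one θ
    have h3 := abs_nonneg (Real.sin θ)
    have h5 := abs_nonneg (Real.cos θ)
    have h6 : |deriv γ x| * |Real.cos θ| ≤ 1 / 2 * 1 :=
      mul_le_mul hd h2 h5 (by norm_num)
    have h7 := mul_le_mul_of_nonneg_left h6 (mul_nonneg hG.le h3)
    nlinarith [h7]
  · unfold KB.Ccoef
    apply mul_nonneg hd0
    positivity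
  · have e : KB.Ccoef γ 1 2 x θ = deriv γ x ^ 2 * (1 - 3 / 4 * Real.cos θ ^ 2) := by
      have hc : Real.sin θ ^ 2 = 1 - Real.cos θ ^ 2 := by linarith
      unfold KB.Ccoef
      rw [hc]
      ring
    rw [e]
    nlinarith [mul_nonneg hd0 hc0]

theorem rpv_R (γ : ℝ → ℝ) (m0 M0 : ℝ) (hz : ZData γ m0 M0) (x θ : ℝ) :
    |KB.Bcoef γ 1 2 x θ| < rpR γ x θ ∧ rpR γ x θ ≤ |KB.Bcoef γ 1 2 x θ| + γ x := by
  obtain ⟨hG, hA1, hA2, -, hC0, hC1⟩ := rpv_facts γ m0 M0 hz x θ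
  have hA : 0 < KB.Acoef γ 1 2 x θ := by
    have : 0 < γ x ^ 2 / 4 := by positivity
    linarith
  constructor
  · unfold rpR
    rw [← Real.sqrt_sq_eq_abs]
    apply Real.sqrt_lt_sqrt (sq_nonneg _)
    have : 0 < KB.Acoef γ 1 2 x θ * (1 - KB.Ccoef γ 1 2 x θ) :=
      mul_pos hA (by linarith)
    linarith
  · unfold rpR
    rw [Real.sqrt_le_iff]
    refine ⟨add_nonneg (abs_nonneg _) hG.le, ?_⟩
    have h1 : KB.Acoef γ 1 2 x θ * (1 - KB.Ccoef γ 1 2 x θ) ≤ γ x ^ 2 := by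
      nlinarith [mul_nonneg hA.le hC0]
    have h2 : (|KB.Bcoef γ 1 2 x θ| + γ x) ^ 2
        = KB.Bcoef γ 1 2 x θ ^ 2 + 2 * |KB.Bcoef γ 1 2 x θ| * γ x + γ x ^ 2 := by
      rw [add_sq, sq_abs]
    rw [h2]
    nlinarith [mul_nonneg (abs_nonneg (KB.Bcoef γ 1 2 x θ)) hG.le]

theorem rpv_num (γ ζ ν : ℝ → ℝ) (m0 M0 : ℝ) (hz : ZData γ m0 M0)
    (hζ0 : ∀ x, 0 ≤ ζ x) (hζ1 : ∀ x, ζ x ≤ 1) (hν0 : ∀ x, 0 ≤ ν x) (hν1 : ∀ x, ν x ≤ 1)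
    (x θ : ℝ) :
    -|KB.Bcoef γ 1 2 x θ| ≤ ζ x * (-KB.Bcoef γ 1 2 x θ + (1 - ν x ^ 2) * rpR γ x θ) ∧
      ζ x * (-KB.Bcoef γ 1 2 x θ + (1 - ν x ^ 2) * rpR γ x θ)
        ≤ |KB.Bcoef γ 1 2 x θ| + rpR γ x θ := by
  obtain ⟨hR1, -⟩ := rpv_R γ m0 M0 hz x θ
  have hR0 : 0 ≤ rpR γ x θ := le_trans (abs_nonneg _) hR1.le
  have hν : 0 ≤ 1 - ν x ^ 2 ∧ 1 - ν x ^ 2 ≤ 1 := by
    constructor
    · nlinarith [hν0 x, hν1 x]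
    · nlinarith [sq_nonneg (ν x)]
  have h1 : 0 ≤ (1 - ν x ^ 2) * rpR γ x θ := mul_nonneg hν.1 hR0
  have h2 : (1 - ν x ^ 2) * rpR γ x θ ≤ rpR γ x θ := by nlinarith [hν.2]
  have hB1 := neg_abs_le (KB.Bcoef γ 1 2 x θ)
  have hB2 := le_abs_self (KB.Bcoef γ 1 2 x θ)
  have hB0 := abs_nonneg (KB.Bcoef γ 1 2 x θ)
  set t := -KB.Bcoef γ 1 2 x θ + (1 - ν x ^ 2) * rpR γ x θ with ht
  have ht1 : -|KB.Bcoef γ 1 2 x θ| ≤ t := by linarith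
  have ht2 : t ≤ |KB.Bcoef γ 1 2 x θ| + rpR γ x θ := by linarith
  constructor
  · rcases le_or_gt 0 t with h | h
    · have := mul_nonneg (hζ0 x) h
      linarith
    · nlinarith [hζ0 x, hζ1 x]
  · rcases le_or_gt 0 t with h | h
    · nlinarith [hζ0 x, hζ1 x]
    · have : ζ x * t ≤ 0 := mul_nonpos_of_nonneg_of_nonpos (hζ0 x) h.le
      linarith

theorem rp_V_bound (γ ζ ν : ℝ → ℝ) (m0 M0 : ℝ) (hz : ZData γ m0 M0)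
    (hζ0 : ∀ x, 0 ≤ ζ x) (hζ1 : ∀ x, ζ x ≤ 1) (hν0 : ∀ x, 0 ≤ ν x) (hν1 : ∀ x, ν x ≤ 1)
    (x θ : ℝ) : |rpV γ ζ ν x θ| ≤ 7 / m0 := by
  obtain ⟨hG, hA1, hA2, hB, hC0, hC1⟩ := rpv_facts γ m0 M0 hz x θ
  obtain ⟨hR1, hR2⟩ := rpv_R γ m0 M0 hz x θ
  obtain ⟨hn1, hn2⟩ := rpv_num γ ζ ν m0 M0 hz hζ0 hζ1 hν0 hν1 x θ
  have hA : 0 < KB.Acoef γ 1 2 x θ := by
    have : 0 < γ x ^ 2 / 4 := by positivity
    linarith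
  have hs := Real.abs_sin_le_one θ
  have hs0 := abs_nonneg (Real.sin θ)
  have hB' : |KB.Bcoef γ 1 2 x θ| ≤ 3 / 8 * γ x := by nlinarith
  have hnum : |ζ x * (-KB.Bcoef γ 1 2 x θ + (1 - ν x ^ 2) * rpR γ x θ)| ≤ 7 / 4 * γ x := by
    rw [abs_le]
    constructor <;> linarith
  unfold rpV
  rw [abs_div, abs_of_pos hA, div_le_div_iff₀ hA hz.m0pos]
  have hm := hz.lo x
  have h0 := abs_nonneg (ζ x * (-KB.Bcoef γ 1 2 x θ + (1 - ν x ^ 2) * rpR γ x θ))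
  nlinarith [mul_le_mul hnum hm hz.m0pos.le (by positivity : (0 : ℝ) ≤ 7 / 4 * γ x)]

theorem rp_V_lower (γ ζ ν : ℝ → ℝ) (m0 M0 : ℝ) (hz : ZData γ m0 M0)
    (hζ0 : ∀ x, 0 ≤ ζ x) (hζ1 : ∀ x, ζ x ≤ 1) (hν0 : ∀ x, 0 ≤ ν x) (hν1 : ∀ x, ν x ≤ 1)
    (x θ : ℝ) : -(2 / m0 * |θ|) ≤ rpV γ ζ ν x θ := by
  obtain ⟨hG, hA1, hA2, hB, hC0, hC1⟩ := rpv_facts γ m0 M0 hz x θ
  obtain ⟨hn1, hn2⟩ := rpv_num γ ζ ν m0 M0 hz hζ0 hζ1 hν0 hν1 x θ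
  have hA : 0 < KB.Acoef γ 1 2 x θ := by
    have : 0 < γ x ^ 2 / 4 := by positivity
    linarith
  have hs := Real.abs_sin_le_abs (x := θ)
  have hθ0 := abs_nonneg θ
  have hm := hz.lo x
  have hB' : |KB.Bcoef γ 1 2 x θ| ≤ 3 / 8 * γ x * |θ| := by nlinarith
  have hkey : γ x / 2 ≤ 2 / m0 * KB.Acoef γ 1 2 x θ := by
    rw [div_mul_eq_mul_div, le_div_iff₀ hz.m0pos]
    nlinarith
  unfold rpV
  rw [le_div_iff₀ hA]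
  have h3 : γ x / 2 * |θ| ≤ 2 / m0 * KB.Acoef γ 1 2 x θ * |θ| :=
    mul_le_mul_of_nonneg_right hkey hθ0
  nlinarith [mul_nonneg hG.le hθ0]

theorem rp_V_pos (γ ζ ν : ℝ → ℝ) (m0 M0 : ℝ) (hz : ZData γ m0 M0) (x θ : ℝ)
    (hζ : ζ x = 1) (hν : ν x = 0) : 0 < rpV γ ζ ν x θ := by
  obtain ⟨hG, hA1, -, -, -, -⟩ := rpv_facts γ m0 M0 hz x θ
  obtain ⟨hR1, -⟩ := rpv_R γ m0 M0 hz x θ
  have hA : 0 < KB.Acoef γ 1 2 x θ := by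
    have : 0 < γ x ^ 2 / 4 := by positivity
    linarith
  unfold rpV
  rw [hζ, hν]
  apply div_pos _ hA
  have := le_abs_self (KB.Bcoef γ 1 2 x θ)
  norm_num
  linarith

theorem rpv_A_sym (γ : ℝ → ℝ) (eγ : ∀ x, γ (-x) = γ x) (x θ : ℝ) :
    KB.Acoef γ 1 2 (-x) (-θ) = KB.Acoef γ 1 2 x θ := by
  unfold KB.Acoef
  rw [eγ, Real.sin_neg, Real.cos_neg]
  ring

theorem rpv_B_sym (γ : ℝ → ℝ) (eγ : ∀ x, γ (-x) = γ x) (x θ : ℝ) :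
    KB.Bcoef γ 1 2 (-x) (-θ) = KB.Bcoef γ 1 2 x θ := by
  unfold KB.Bcoef
  rw [eγ, rpv_deriv_neg γ eγ, Real.sin_neg, Real.cos_neg]
  ring

theorem rpv_C_sym (γ : ℝ → ℝ) (eγ : ∀ x, γ (-x) = γ x) (x θ : ℝ) :
    KB.Ccoef γ 1 2 (-x) (-θ) = KB.Ccoef γ 1 2 x θ := by
  unfold KB.Ccoef
  rw [rpv_deriv_neg γ eγ, Real.sin_neg, Real.cos_neg]
  ring

theorem rp_V_sym (γ ζ ν : ℝ → ℝ) (m0 M0 : ℝ) (hz : ZData γ m0 M0)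
    (eζ : ∀ x, ζ (-x) = ζ x) (eν : ∀ x, ν (-x) = ν x) (x θ : ℝ) :
    rpV γ ζ ν (-x) (-θ) = rpV γ ζ ν x θ := by
  unfold rpV rpR
  rw [rpv_A_sym γ hz.eγ, rpv_B_sym γ hz.eγ, rpv_C_sym γ hz.eγ, eζ, eν]

theorem rp_V_periodic (γ ζ ν : ℝ → ℝ) (x θ : ℝ) :
    rpV γ ζ ν x (θ + Real.pi) = rpV γ ζ ν x θ := by
  have hA : KB.Acoef γ 1 2 x (θ + Real.pi) = KB.Acoef γ 1 2 x θ := by
    unfold KB.Acoef
    rw [Real.sin_add_pi, Real.cos_add_pi]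
    ring
  have hB : KB.Bcoef γ 1 2 x (θ + Real.pi) = KB.Bcoef γ 1 2 x θ := by
    unfold KB.Bcoef
    rw [Real.sin_add_pi, Real.cos_add_pi]
    ring
  have hC : KB.Ccoef γ 1 2 x (θ + Real.pi) = KB.Ccoef γ 1 2 x θ := by
    unfold KB.Ccoef
    rw [Real.sin_add_pi, Real.cos_add_pi]
    ring
  unfold rpV rpR
  rw [hA, hB, hC]

end Vale.Agent.H55.RP
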