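import Vale.Agent.H55.RP.ZoneVS
import Vale.Agent.H55.RP.ZoneV
import Vale.Agent.H55.RP.ZoneLip
import Vale.Agent.H55.RP.ZoneTheta
import Vale.Agent.H55.RP.ZoneAlg
import Vale.Agent.H55.RP.ZoneCons
import Vale.Agent.H55.KB.Ode
import Vale.Agent.H55.KB.Div
import Vale.Agent.H55.KB.Cut

/-!
ROW RP-ZONE (replace the `sorry`, keep the statement exactly; helper lemmas: fresh names with stem
`rpz_` in this file).  ASSEMBLY ROW: every imported lemma (`rp_V_contDiff`, `rp_V_bound`,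
`rp_V_lower`, `rp_V_pos`, `rp_V_sym`, `rp_V_periodic`, `rp_lipschitz`, `rp_theta_props`,
`rp_deficit`, `rp_Du_sin`, `rp_conservation`, and the proven `KB.exists_odd_solution`,
`KB.exists_D`, `KB.exists_nu`) is to be used AS STATED, whether or not its proof has landed.

The zone around the middle circle (`x = 0`): `U = sin Θ` is the signed profile, `E` the twist.

1. `M₁ = 7 / m0`, `K₂ = 2 / m0`; `0 < m0 ≤ M0` (`hz.lo 0`, `hz.hi 0`).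
2. `β = min 1 (π / (4 * M₁))`, so `0 < β ≤ 1` and `M₁ * β ≤ π / 4`; `b = min (β / 2) b₀`.
3. `r = min (b / 2) (1 / (M₁ * (1 + 2 * |C₀| * M0 ^ 6)))`, `a = r`: then `0 < r < b`,
   `M₁ * r ≤ 1` and `2 * C₀ * (M₁ * r) * M0 ^ 6 ≤ 1`.
4. `νβ` from `KB.exists_nu β`, `ζ = fun x => 1 - νβ x` (smooth, even, `0 ≤ ζ ≤ 1`, `ζ x = 1` for
   `|x| ≤ β / 2`, `ζ x = 0` for `β ≤ |x|`); `ν` from `KB.exists_nu r` (`ν x = 0` for
   `|x| ≤ r / 2`, `ν x = 1` for `r ≤ |x|`).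
5. `V = rpV γ ζ ν`: smooth (`rp_V_contDiff`), `|V| ≤ M₁` (`rp_V_bound`), invariant under
   `(x, θ) ↦ (-x, -θ)` (`rp_V_sym`), `V x θ = 0` for `β ≤ |x|` (unfold `rpV`: `ζ x = 0`), in
   particular for `1 ≤ |x|`; Lipschitz in `θ` by `rp_lipschitz` (with `rp_V_periodic`).
   `KB.exists_odd_solution V _ M₁ K _ _ _ _` gives `Θ` smooth, odd, `Θ 0 = 0`,
   `HasDerivAt Θ (V x (Θ x)) x`.
6. `rp_theta_props V Θ M₁ K₂ β (r / 2)` (positivity for `|x| ≤ r / 2`: `ζ x = 1`, `ν x = 0`,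
   `rp_V_pos`; lower bound: `rp_V_lower`): `0 < Θ x` for `0 < x`, `Θ x ≤ M₁ * x` and
   `Θ x ≤ M₁ * β ≤ π / 4` for `0 ≤ x`.  So `cos (Θ x) > 0` for every `x` (oddness for `x < 0`).
7. `Nt = rpNt γ ν Θ`: smooth (`deriv γ` is smooth, `1 + 3 cos² ≥ 1`), even (`ν` even,
   `deriv γ (-x) = -deriv γ x`, `Θ` odd), positive (`2 - ν² ≥ 1`, `deriv γ x ^ 2 ≤ 1/4`).
8. `KB.exists_D (fun _ => 1) ν Θ Nt (r / 2) …` gives `D` smooth, odd, with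
   `1 ^ 2 * sin (Θ x) ^ 2 * cos (Θ x) ^ 2 * D x ^ 2 = ν x ^ 2 * Nt x` and, for `0 < x`,
   `D x = ν x * √(Nt x) / (1 * sin (Θ x) * cos (Θ x))`.
9. `U = fun x => sin (Θ x)`, `E = fun x => cos (Θ x) * D x`: smooth, odd; `U x ^ 2 < 1` as
   `cos (Θ x) ≠ 0`.
10. For `|x| ≤ b` (`≤ β / 2`, so `ζ x = 1`): `deriv U x = cos (Θ x) * V x (Θ x)`;
    `rp_Du_sin γ x (Θ x) (V x (Θ x))` and `rp_deficit γ ζ ν x (Θ x)` give
    `Du (γ x) (deriv γ x) (U x) (deriv U x) = ν x ^ 2 * Nt x = U x ^ 2 * E x ^ 2`.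
11. For `r ≤ x ≤ b`: `ν x = 1`, so `D x > 0` and `E x > 0`; and
    `V x (Θ x) = -KB.Bcoef γ 1 2 x (Θ x) / KB.Acoef γ 1 2 x (Θ x)` (unfold `rpV`, `ζ x = 1`,
    `1 - 1 ^ 2 = 0`), so `rp_conservation γ Θ r b` gives the last clause with
    `C = cos (Θ r) ^ 2 / (sin (Θ r) ^ 8 * γ r ^ 6)`.
12. `C₀ ≤ C`: `0 < sin (Θ r) ≤ Θ r ≤ M₁ * r ≤ 1`, so `sin (Θ r) ^ 8 ≤ M₁ * r`; `γ r ^ 6 ≤ M0 ^ 6`;
    `cos (Θ r) ^ 2 ≥ 1/2` (`Θ r ≤ π / 4`); hence `C ≥ 1 / (2 * (M₁ * r) * M0 ^ 6) ≥ C₀`.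
-/

namespace Vale.Agent.H55.RP

open scoped ContDiff

/-- The numeric constants of the zone. -/
theorem rpz_consts (m0 M0 b₀ C₀ : ℝ) (hm0 : 0 < m0) (hb₀ : 0 < b₀) :
    ∃ β b r : ℝ, 0 < β ∧ β ≤ 1 ∧ 7 / m0 * β ≤ Real.pi / 4 ∧ 0 < b ∧ b ≤ β / 2 ∧ b ≤ b₀ ∧
      0 < r ∧ r ≤ b / 2 ∧ 7 / m0 * r ≤ 1 ∧ 2 * C₀ * (7 / m0 * r) * M0 ^ 6 ≤ 1 := by
  have hM1 : 0 < 7 / m0 := by positivity
  have hπ : 0 < Real.pi := Real.pi_pos
  have hM6 : 0 ≤ M0 ^ 6 := by positivity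
  have hT1 : 1 ≤ 1 + 2 * |C₀| * M0 ^ 6 := by
    have h : 0 ≤ 2 * |C₀| * M0 ^ 6 := by positivity
    linarith
  have hT : 0 < 1 + 2 * |C₀| * M0 ^ 6 := by linarith
  obtain ⟨β, hβ⟩ : ∃ β : ℝ, β = min 1 (Real.pi / (4 * (7 / m0))) := ⟨_, rfl⟩
  have hβ0 : 0 < β := by
    rw [hβ]
    exact lt_min one_pos (by positivity)
  have hβ1 : β ≤ 1 := by
    rw [hβ]
    exact min_le_left _ _
  have hβ2 : β ≤ Real.pi / (4 * (7 / m0)) := by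
    rw [hβ]
    exact min_le_right _ _
  have hMβ : 7 / m0 * β ≤ Real.pi / 4 := by
    have h := mul_le_mul_of_nonneg_left hβ2 hM1.le
    have e : 7 / m0 * (Real.pi / (4 * (7 / m0))) = Real.pi / 4 := by
      field_simp
    linarith
  obtain ⟨b, hb⟩ : ∃ b : ℝ, b = min (β / 2) b₀ := ⟨_, rfl⟩
  have hb0 : 0 < b := by
    rw [hb]
    exact lt_min (by linarith) hb₀
  have hbβ : b ≤ β / 2 := by
    rw [hb]
    exact min_le_left _ _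
  have hbb : b ≤ b₀ := by
    rw [hb]
    exact min_le_right _ _
  obtain ⟨r, hr⟩ : ∃ r : ℝ, r = min (b / 2) (1 / (7 / m0 * (1 + 2 * |C₀| * M0 ^ 6))) :=
    ⟨_, rfl⟩
  have hr0 : 0 < r := by
    rw [hr]
    exact lt_min (by linarith) (by positivity)
  have hrb : r ≤ b / 2 := by
    rw [hr]
    exact min_le_left _ _
  have hr2 : r ≤ 1 / (7 / m0 * (1 + 2 * |C₀| * M0 ^ 6)) := by
    rw [hr]
    exact min_le_right _ _
  have hq0 : 0 ≤ 7 / m0 * r := by positivity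
  have hqT : 7 / m0 * r * (1 + 2 * |C₀| * M0 ^ 6) ≤ 1 := by
    have h1 := mul_le_mul_of_nonneg_left hr2 (mul_pos hM1 hT).le
    rw [mul_one_div_cancel (mul_pos hM1 hT).ne'] at h1
    have e : 7 / m0 * r * (1 + 2 * |C₀| * M0 ^ 6) = 7 / m0 * (1 + 2 * |C₀| * M0 ^ 6) * r := by
      ring
    rw [e]
    exact h1
  have hq1 : 7 / m0 * r ≤ 1 := by
    have h := mul_le_mul_of_nonneg_left hT1 hq0
    linarith
  have hC : 2 * C₀ * (7 / m0 * r) * M0 ^ 6 ≤ 1 := by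
    have h1 : C₀ * (7 / m0 * r * M0 ^ 6) ≤ |C₀| * (7 / m0 * r * M0 ^ 6) :=
      mul_le_mul_of_nonneg_right (le_abs_self C₀) (mul_nonneg hq0 hM6)
    have e1 : 7 / m0 * r * (1 + 2 * |C₀| * M0 ^ 6) =
        7 / m0 * r + 2 * (|C₀| * (7 / m0 * r * M0 ^ 6)) := by ring
    have e2 : 2 * C₀ * (7 / m0 * r) * M0 ^ 6 = 2 * (C₀ * (7 / m0 * r * M0 ^ 6)) := by ring
    linarith
  exact ⟨β, b, r, hβ0, hβ1, hMβ, hb0, hbβ, hbb, hr0, hrb, hq1, hC⟩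

/-- The cut-off which is `1` near the middle circle and `0` outside `|x| < β`. -/
theorem rpz_zeta (β : ℝ) (hβ : 0 < β) :
    ∃ ζ : ℝ → ℝ, ContDiff ℝ ∞ ζ ∧ (∀ x, ζ (-x) = ζ x) ∧ (∀ x, 0 ≤ ζ x) ∧ (∀ x, ζ x ≤ 1) ∧
      (∀ x, |x| ≤ β / 2 → ζ x = 1) ∧ (∀ x, β ≤ |x| → ζ x = 0) := by
  obtain ⟨ν, sν, eν, h0, h1, hzr, ho⟩ := KB.exists_nu β hβ
  refine ⟨fun x => 1 - ν x, contDiff_const.sub sν, ?_, ?_, ?_, ?_, ?_⟩
  · intro x
    show 1 - ν (-x) = 1 - ν x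
    rw [eν]
  · intro x
    show 0 ≤ 1 - ν x
    linarith [h1 x]
  · intro x
    show 1 - ν x ≤ 1
    linarith [h0 x]
  · intro x hx
    show 1 - ν x = 1
    rw [hzr x hx]
    ring
  · intro x hx
    show 1 - ν x = 0
    rw [ho x hx]
    ring

/-- The positive factor of the deficit is smooth, even and positive. -/
theorem rpz_Nt (γ ν Θ : ℝ → ℝ) (m0 M0 : ℝ) (hz : ZData γ m0 M0) (sν : ContDiff ℝ ∞ ν)
    (sΘ : ContDiff ℝ ∞ Θ) (eν : ∀ x, ν (-x) = ν x) (hν0 : ∀ x, 0 ≤ ν x) (hν1 : ∀ x, ν x ≤ 1)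
    (oΘ : ∀ x, Θ (-x) = -Θ x) :
    ContDiff ℝ ∞ (rpNt γ ν Θ) ∧ (∀ x, rpNt γ ν Θ (-x) = rpNt γ ν Θ x) ∧
      ∀ x, 0 < rpNt γ ν Θ x := by
  have sdγ : ContDiff ℝ ∞ (deriv γ) := (contDiff_infty_iff_deriv.mp hz.sγ).2
  have hdγ : ∀ x, deriv γ (-x) = -deriv γ x := by
    intro x
    have h := deriv_comp_neg γ x
    have e : (fun y => γ (-y)) = γ := funext hz.eγ
    rw [e] at h
    linarith
  refine ⟨?_, ?_, ?_⟩
  · have h1 : ContDiff ℝ ∞ (fun x => (2 - ν x ^ 2) *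
        (1 - deriv γ x ^ 2 / (1 + 3 * Real.cos (Θ x) ^ 2))) :=
      (contDiff_const.sub (sν.pow 2)).mul (contDiff_const.sub ((sdγ.pow 2).div
        (contDiff_const.add (contDiff_const.mul ((Real.contDiff_cos.comp sΘ).pow 2)))
        (fun x => by positivity)))
    exact h1
  · intro x
    show (2 - ν (-x) ^ 2) * (1 - deriv γ (-x) ^ 2 / (1 + 3 * Real.cos (Θ (-x)) ^ 2)) =
      (2 - ν x ^ 2) * (1 - deriv γ x ^ 2 / (1 + 3 * Real.cos (Θ x) ^ 2))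
    rw [eν, hdγ, oΘ, Real.cos_neg, neg_sq]
  · intro x
    show 0 < (2 - ν x ^ 2) * (1 - deriv γ x ^ 2 / (1 + 3 * Real.cos (Θ x) ^ 2))
    have h1 : ν x ^ 2 ≤ 1 := by nlinarith [hν0 x, hν1 x]
    have h2 : deriv γ x ^ 2 ≤ 1 / 4 := by
      have h := abs_le.mp (hz.dγ x)
      nlinarith [h.1, h.2]
    have h3 : (1 : ℝ) ≤ 1 + 3 * Real.cos (Θ x) ^ 2 := by
      have h := sq_nonneg (Real.cos (Θ x))
      linarith
    have h4 : deriv γ x ^ 2 / (1 + 3 * Real.cos (Θ x) ^ 2) ≤ deriv γ x ^ 2 :=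
      div_le_self (sq_nonneg _) h3
    exact mul_pos (by linarith) (by linarith)

/-- The lower bound for the constant of the conservation law. -/
theorem rpz_C_bound (C₀ M0 q th G : ℝ) (hth0 : 0 < th) (hth1 : th ≤ Real.pi / 4) (hthq : th ≤ q)
    (hq1 : q ≤ 1) (hG0 : 0 < G) (hGM : G ≤ M0) (hC : 2 * C₀ * q * M0 ^ 6 ≤ 1) :
    C₀ ≤ Real.cos th ^ 2 / (Real.sin th ^ 8 * G ^ 6) := by
  have hπ : 0 < Real.pi := Real.pi_pos
  have hs0 : 0 < Real.sin th := Real.sin_pos_of_pos_of_lt_pi hth0 (by linarith)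
  have hsth : Real.sin th ≤ th := Real.sin_le hth0.le
  have hs1 : Real.sin th ≤ 1 := by linarith
  have hs8 : Real.sin th ^ 8 ≤ Real.sin th := pow_le_of_le_one hs0.le hs1 (by norm_num)
  have hs8q : Real.sin th ^ 8 ≤ q := by linarith
  have hq0 : 0 ≤ q := by linarith
  have hG6 : G ^ 6 ≤ M0 ^ 6 := pow_le_pow_left₀ hG0.le hGM 6
  have hcos : Real.cos (Real.pi / 4) ≤ Real.cos th :=
    Real.cos_le_cos_of_nonneg_of_le_pi hth0.le (by linarith) hth1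
  rw [Real.cos_pi_div_four] at hcos
  have hsqrt : (0 : ℝ) ≤ √2 / 2 := by positivity
  have hc2 : 1 / 2 ≤ Real.cos th ^ 2 := by
    have h := pow_le_pow_left₀ hsqrt hcos 2
    have e : (√2 / 2) ^ 2 = 1 / 2 := by
      rw [div_pow, Real.sq_sqrt (by norm_num)]
      norm_num
    rw [e] at h
    exact h
  have hden : 0 < Real.sin th ^ 8 * G ^ 6 := mul_pos (pow_pos hs0 8) (pow_pos hG0 6)
  rw [le_div_iff₀ hden]
  rcases le_or_gt C₀ 0 with hC0 | hC0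
  · have h := mul_nonpos_of_nonpos_of_nonneg hC0 hden.le
    linarith
  · have h1 : Real.sin th ^ 8 * G ^ 6 ≤ q * M0 ^ 6 :=
      mul_le_mul hs8q hG6 (pow_pos hG0 6).le hq0
    have h2 := mul_le_mul_of_nonneg_left h1 hC0.le
    have e : C₀ * (q * M0 ^ 6) = (2 * C₀ * q * M0 ^ 6) / 2 := by ring
    linarith

theorem rp_zone (γ : ℝ → ℝ) (m0 M0 : ℝ) (hz : ZData γ m0 M0) (b₀ C₀ : ℝ) (hb₀ : 0 < b₀) :
    ∃ (U E : ℝ → ℝ) (a b C : ℝ), 0 < a ∧ a < b ∧ b ≤ b₀ ∧ C₀ ≤ C ∧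
      ContDiff ℝ ∞ U ∧ ContDiff ℝ ∞ E ∧ (∀ x, U (-x) = -U x) ∧ (∀ x, E (-x) = -E x) ∧
      (∀ x, |x| ≤ b → U x ^ 2 < 1) ∧
      (∀ x, |x| ≤ b → Du (γ x) (deriv γ x) (U x) (deriv U x) = U x ^ 2 * E x ^ 2) ∧
      (∀ x, a ≤ x → x ≤ b → 0 < E x) ∧
      (∀ x, a ≤ x → x ≤ b → U x = √(1 - Vale.Agent.H19.Sph.Jinv (C * γ x ^ 6))) := by
  have hm0 : 0 < m0 := hz.m0pos
  have hγpos : ∀ x, 0 < γ x := fun x => lt_of_lt_of_le hm0 (hz.lo x)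
  obtain ⟨β, b, r, hβ0, hβ1, hMβ, hb0, hbβ, hbb₀, hr0, hrb, hMr, hCr⟩ :=
    rpz_consts m0 M0 b₀ C₀ hm0 hb₀
  obtain ⟨ζ, sζ, eζ, hζ0, hζ1, hζone, hζzero⟩ := rpz_zeta β hβ0
  obtain ⟨ν, sν, eν, hν0, hν1, hνzero, hνone⟩ := KB.exists_nu r hr0
  have hV := rp_V_contDiff γ ζ ν m0 M0 hz sζ sν
  have hVM : ∀ x θ, |rpV γ ζ ν x θ| ≤ 7 / m0 := rp_V_bound γ ζ ν m0 M0 hz hζ0 hζ1 hν0 hν1
  have hVsym : ∀ x θ, rpV γ ζ ν (-x) (-θ) = rpV γ ζ ν x θ := rp_V_sym γ ζ ν m0 M0 hz eζ eν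
  have hVsupp : ∀ x θ, β ≤ |x| → rpV γ ζ ν x θ = 0 := by
    intro x θ hx
    show ζ x * (-KB.Bcoef γ 1 2 x θ + (1 - ν x ^ 2) * rpR γ x θ) / KB.Acoef γ 1 2 x θ = 0
    rw [hζzero x hx]
    ring
  have hVsupp1 : ∀ x θ, 1 ≤ |x| → rpV γ ζ ν x θ = 0 :=
    fun x θ hx => hVsupp x θ (le_trans hβ1 hx)
  obtain ⟨K, hK0, hKlip⟩ := rp_lipschitz (rpV γ ζ ν) hV (rp_V_periodic γ ζ ν) hVsupp1
  obtain ⟨Θ, sΘ, hΘ0, oΘ, hΘd⟩ :=
    KB.exists_odd_solution (rpV γ ζ ν) hV (7 / m0) K hVM hKlip hVsym hVsupp1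
  have hpos : ∀ x θ, |x| ≤ r / 2 → 0 < rpV γ ζ ν x θ := by
    intro x θ hx
    exact rp_V_pos γ ζ ν m0 M0 hz x θ (hζone x (by linarith)) (hνzero x hx)
  have hlow : ∀ x θ, -(2 / m0 * |θ|) ≤ rpV γ ζ ν x θ :=
    rp_V_lower γ ζ ν m0 M0 hz hζ0 hζ1 hν0 hν1
  obtain ⟨hΘpos, hΘlin, hΘβ⟩ := rp_theta_props (rpV γ ζ ν) Θ (7 / m0) (2 / m0) β (r / 2) hβ0
    (by linarith) (by positivity) hΘ0 hΘd hVM hVsupp hpos hlow
  have hΘq : ∀ x, 0 < x → 0 < Θ x ∧ Θ x ≤ Real.pi / 4 :=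
    fun x hx => ⟨hΘpos x hx, le_trans (hΘβ x hx.le) hMβ⟩
  have hπ : 0 < Real.pi := Real.pi_pos
  have hcos : ∀ x, 0 < Real.cos (Θ x) := by
    intro x
    have key : ∀ y, 0 < y → 0 < Real.cos (Θ y) := by
      intro y hy
      obtain ⟨h1, h2⟩ := hΘq y hy
      exact Real.cos_pos_of_mem_Ioo ⟨by linarith, by linarith⟩
    rcases lt_trichotomy x 0 with h | h | h
    · have h3 := key (-x) (by linarith)
      rwa [oΘ, Real.cos_neg] at h3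
    · rw [h, hΘ0, Real.cos_zero]
      exact one_pos
    · exact key x h
  obtain ⟨sN, eN, Npos⟩ := rpz_Nt γ ν Θ m0 M0 hz sν sΘ eν hν0 hν1 oΘ
  obtain ⟨D, sD, oD, hDeq, hDval⟩ := KB.exists_D (fun _ => (1 : ℝ)) ν Θ (rpNt γ ν Θ) (r / 2)
    (by linarith) contDiff_const sν sΘ sN (fun _ => rfl) (fun _ => one_pos) eν oΘ eN Npos
    (fun x hx => hνzero x hx.le) hΘq
  have hDeq' : ∀ x, Real.sin (Θ x) ^ 2 * Real.cos (Θ x) ^ 2 * D x ^ 2 = ν x ^ 2 * rpNt γ ν Θ x := by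
    intro x
    have h := hDeq x
    simp only [one_pow, one_mul] at h
    exact h
  have hDval' : ∀ x, 0 < x →
      D x = ν x * Real.sqrt (rpNt γ ν Θ x) / (Real.sin (Θ x) * Real.cos (Θ x)) := by
    intro x hx
    have h := hDval x hx
    simp only [one_mul] at h
    exact h
  refine ⟨fun x => Real.sin (Θ x), fun x => Real.cos (Θ x) * D x, r, b,
    Real.cos (Θ r) ^ 2 / (Real.sin (Θ r) ^ 8 * γ r ^ 6), hr0, by linarith, hbb₀, ?_, ?_, ?_, ?_,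
    ?_, ?_, ?_, ?_, ?_⟩
  · obtain ⟨h1, h2⟩ := hΘq r hr0
    exact rpz_C_bound C₀ M0 (7 / m0 * r) (Θ r) (γ r) h1 h2 (hΘlin r hr0.le) hMr (hγpos r)
      (hz.hi r) hCr
  · exact Real.contDiff_sin.comp sΘ
  · exact (Real.contDiff_cos.comp sΘ).mul sD
  · intro x
    show Real.sin (Θ (-x)) = -Real.sin (Θ x)
    rw [oΘ, Real.sin_neg]
  · intro x
    show Real.cos (Θ (-x)) * D (-x) = -(Real.cos (Θ x) * D x)
    rw [oΘ, Real.cos_neg, oD]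
    ring
  · intro x _
    show Real.sin (Θ x) ^ 2 < 1
    have h1 := hcos x
    have h2 := Real.sin_sq_add_cos_sq (Θ x)
    have h3 : 0 < Real.cos (Θ x) ^ 2 := pow_pos h1 2
    linarith
  · intro x hx
    have hζx : ζ x = 1 := hζone x (le_trans hx hbβ)
    have hUd : deriv (fun y => Real.sin (Θ y)) x = Real.cos (Θ x) * rpV γ ζ ν x (Θ x) :=
      ((Real.hasDerivAt_sin (Θ x)).comp x (hΘd x)).deriv
    show Du (γ x) (deriv γ x) (Real.sin (Θ x)) (deriv (fun y => Real.sin (Θ y)) x) =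
      Real.sin (Θ x) ^ 2 * (Real.cos (Θ x) * D x) ^ 2
    rw [hUd, rp_Du_sin γ x (Θ x) _ (hcos x).ne',
      rp_deficit γ ζ ν x (Θ x) (hγpos x) (hz.dγ x) hζx]
    have h := hDeq' x
    have hN : rpNt γ ν Θ x =
        (2 - ν x ^ 2) * (1 - deriv γ x ^ 2 / (1 + 3 * Real.cos (Θ x) ^ 2)) := rfl
    rw [← hN, ← h]
    ring
  · intro x hx1 hx2
    have hx0 : 0 < x := lt_of_lt_of_le hr0 hx1
    have hνx : ν x = 1 := hνone x (by rw [abs_of_pos hx0]; exact hx1)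
    obtain ⟨h1, h2⟩ := hΘq x hx0
    have hsin : 0 < Real.sin (Θ x) := Real.sin_pos_of_pos_of_lt_pi h1 (by linarith)
    have hD : 0 < D x := by
      rw [hDval' x hx0, hνx, one_mul]
      exact div_pos (Real.sqrt_pos.mpr (Npos x)) (mul_pos hsin (hcos x))
    exact mul_pos (hcos x) hD
  · intro x hx1 hx2
    have hcons := rp_conservation γ Θ r b (by linarith) hz.sγ (fun y _ => hγpos y)
      (fun y hy => hΘq y (lt_of_lt_of_le hr0 hy.1)) (by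
        intro y hy
        have hy0 : 0 < y := lt_of_lt_of_le hr0 hy.1
        have hζy : ζ y = 1 := hζone y (by rw [abs_of_pos hy0]; linarith [hy.2])
        have hνy : ν y = 1 := hνone y (by rw [abs_of_pos hy0]; exact hy.1)
        have hV' : rpV γ ζ ν y (Θ y) =
            -KB.Bcoef γ 1 2 y (Θ y) / KB.Acoef γ 1 2 y (Θ y) := by
          show ζ y * (-KB.Bcoef γ 1 2 y (Θ y) + (1 - ν y ^ 2) * rpR γ y (Θ y)) /
            KB.Acoef γ 1 2 y (Θ y) = -KB.Bcoef γ 1 2 y (Θ y) / KB.Acoef γ 1 2 y (Θ y)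
          rw [hζy, hνy]
          ring
        rw [← hV']
        exact hΘd y) x ⟨hx1, hx2⟩
    exact hcons

end Vale.Agent.H55.RP
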