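import Mathlib

/-!
ROW RP-Z-POS.  A function with `f a > 0` and `f' ≥ -K |f|` on `[a, b]` stays positive.

Proof.  `f` is continuous on `Icc a b`.  Suppose `f b ≤ 0`.  Let `S = {x ∈ Icc a b | f x ≤ 0}`,
compact and nonempty, with least element `x₀`; `0 < f x` for `x ∈ Ico a x₀`.  On `Icc a x₀`
the function `h x = f x * Real.exp (K * x)` has derivative
`(f' x + K * f x) * Real.exp (K * x) ≥ 0` in the interior (as `f x > 0` there), so `h` is
monotone on `Icc a x₀`, hence `0 ≥ h x₀ ≥ h a > 0`, a contradiction.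
-/

namespace Vale.Agent.H55.RP

theorem rp_pos_of_deriv_ge (f f' : ℝ → ℝ) (a b K : ℝ) (hab : a ≤ b) (hK : 0 ≤ K)
    (hd : ∀ x ∈ Set.Icc a b, HasDerivAt f (f' x) x)
    (hlow : ∀ x ∈ Set.Icc a b, -(K * |f x|) ≤ f' x) (ha : 0 < f a) : 0 < f b := by
  by_contra hb
  have hb' : f b ≤ 0 := not_lt.mp hb
  have hcont : ContinuousOn f (Set.Icc a b) :=
    fun x hx => (hd x hx).continuousAt.continuousWithinAt
  have hSclosed : IsClosed (Set.Icc a b ∩ f ⁻¹' Set.Iic 0) :=
    hcont.preimage_isClosed_of_isClosed isClosed_Icc isClosed_Iic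
  have hScompact : IsCompact (Set.Icc a b ∩ f ⁻¹' Set.Iic 0) :=
    isCompact_Icc.of_isClosed_subset hSclosed Set.inter_subset_left
  have hSne : (Set.Icc a b ∩ f ⁻¹' Set.Iic 0).Nonempty := ⟨b, ⟨hab, le_refl b⟩, hb'⟩
  obtain ⟨x₀, hx₀S, hx₀min⟩ := hScompact.exists_isLeast hSne
  have hx₀ab : x₀ ∈ Set.Icc a b := hx₀S.1
  have hfx₀ : f x₀ ≤ 0 := hx₀S.2
  have hpos : ∀ x ∈ Set.Icc a b, x < x₀ → 0 < f x := by
    intro x hx hlt
    by_contra hneg
    have hxS : x ∈ Set.Icc a b ∩ f ⁻¹' Set.Iic 0 := ⟨hx, not_lt.mp hneg⟩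
    exact absurd (hx₀min hxS) (not_le.mpr hlt)
  have hderiv : ∀ x ∈ Set.Icc a b, HasDerivAt (fun x => f x * Real.exp (K * x))
      (f' x * Real.exp (K * x) + f x * (Real.exp (K * x) * K)) x := by
    intro x hx
    have h1 : HasDerivAt (fun x : ℝ => K * x) K x := by
      simpa using (hasDerivAt_id x).const_mul K
    exact (hd x hx).mul h1.exp
  have hmono : MonotoneOn (fun x => f x * Real.exp (K * x)) (Set.Icc a x₀) := by
    apply monotoneOn_of_deriv_nonneg (convex_Icc a x₀)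
    · intro x hx
      exact (hderiv x ⟨hx.1, hx.2.trans hx₀ab.2⟩).continuousAt.continuousWithinAt
    · intro x hx
      rw [interior_Icc] at hx
      exact (hderiv x ⟨hx.1.le, hx.2.le.trans hx₀ab.2⟩).differentiableAt.differentiableWithinAt
    · intro x hx
      rw [interior_Icc] at hx
      have hxab : x ∈ Set.Icc a b := ⟨hx.1.le, hx.2.le.trans hx₀ab.2⟩
      rw [(hderiv x hxab).deriv]
      have hfx : 0 < f x := hpos x hxab hx.2
      have h2 := hlow x hxab
      rw [abs_of_pos hfx] at h2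
      have he : 0 < Real.exp (K * x) := Real.exp_pos _
      nlinarith [mul_nonneg (by linarith : (0 : ℝ) ≤ f' x + K * f x) he.le]
  have hax₀ : a ≤ x₀ := hx₀ab.1
  have h3 := hmono ⟨le_refl a, hax₀⟩ ⟨hax₀, le_refl x₀⟩ hax₀
  simp only at h3
  have he1 : 0 < Real.exp (K * a) := Real.exp_pos _
  have he2 : 0 < Real.exp (K * x₀) := Real.exp_pos _
  nlinarith [mul_pos ha he1, mul_nonneg (neg_nonneg.mpr hfx₀) he2.le]

end Vale.Agent.H55.RP
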