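import Vale.Agent.H55.RP.Defs
import Vale.Agent.H55.KB.Hzero

/-!
ROW RP-Z-VS (done; helper lemmas carry the stem `rpvs_`).

`rpV γ ζ ν x θ = ζ x * (-B + (1 - ν x ^ 2) * √(B² + A (1 - C))) / A` with
`A = KB.Acoef γ 1 2 x θ = γ x ^ 2 * (cos θ ^ 2 / 1 ^ 2 + sin θ ^ 2 / 2 ^ 2)`, `B = KB.Bcoef γ 1 2 x θ`,
`C = KB.Ccoef γ 1 2 x θ = deriv γ x ^ 2 * (sin θ ^ 2 / 1 ^ 2 + cos θ ^ 2 / 2 ^ 2)`.
`A, B, C` are smooth in `(x, θ)`: `KB.hz_smooth_A`, `KB.hz_smooth_B`, `KB.hz_smooth_C`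
(`Vale/Agent/H55/KB/Hzero.lean`).  `A > 0` (`γ x ≥ m0 > 0`, `cos² + sin²/4 > 0`), `C ≤ (1/2)² < 1`
(`|deriv γ x| ≤ 1/2`, `sin² + cos²/4 ≤ 1`), so the radicand is `≥ A (1 - C) > 0` and
`ContDiff.sqrt` applies; the quotient by `A ≠ 0` is smooth (`ContDiff.div`).
-/

namespace Vale.Agent.H55.RP

open scoped ContDiff

theorem rpvs_A_pos (γ : ℝ → ℝ) (m0 M0 : ℝ) (hz : ZData γ m0 M0) (x θ : ℝ) :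
    0 < KB.Acoef γ 1 2 x θ :=
  KB.hz_A_pos γ 1 2 x θ (lt_of_lt_of_le hz.m0pos (hz.lo x)) one_pos two_pos

theorem rpvs_C_lt (γ : ℝ → ℝ) (m0 M0 : ℝ) (hz : ZData γ m0 M0) (x θ : ℝ) :
    KB.Ccoef γ 1 2 x θ < 1 := by
  unfold KB.Ccoef
  have hd := hz.dγ x
  have hd2 : deriv γ x ^ 2 ≤ 1 / 4 := by
    have h1 := abs_le.mp hd
    nlinarith [h1.1, h1.2]
  have hsc := Real.sin_sq_add_cos_sq θ
  have hs0 : 0 ≤ Real.sin θ ^ 2 := sq_nonneg _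
  have hc0 : 0 ≤ Real.cos θ ^ 2 := sq_nonneg _
  have hf1 : Real.sin θ ^ 2 / 1 ^ 2 + Real.cos θ ^ 2 / 2 ^ 2 ≤ 1 := by
    have : Real.sin θ ^ 2 / 1 ^ 2 + Real.cos θ ^ 2 / 2 ^ 2
        = Real.sin θ ^ 2 + Real.cos θ ^ 2 / 4 := by ring
    rw [this]
    linarith
  have hf0 : 0 ≤ Real.sin θ ^ 2 / 1 ^ 2 + Real.cos θ ^ 2 / 2 ^ 2 := by positivity
  have hd0 : 0 ≤ deriv γ x ^ 2 := sq_nonneg _
  nlinarith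

theorem rpvs_rad_pos (γ : ℝ → ℝ) (m0 M0 : ℝ) (hz : ZData γ m0 M0) (x θ : ℝ) :
    0 < KB.Bcoef γ 1 2 x θ ^ 2 + KB.Acoef γ 1 2 x θ * (1 - KB.Ccoef γ 1 2 x θ) := by
  have hA := rpvs_A_pos γ m0 M0 hz x θ
  have hC := rpvs_C_lt γ m0 M0 hz x θ
  have h1 : 0 < KB.Acoef γ 1 2 x θ * (1 - KB.Ccoef γ 1 2 x θ) := mul_pos hA (by linarith)
  have h2 : 0 ≤ KB.Bcoef γ 1 2 x θ ^ 2 := sq_nonneg _
  linarith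

theorem rpvs_R_contDiff (γ : ℝ → ℝ) (m0 M0 : ℝ) (hz : ZData γ m0 M0) :
    ContDiff ℝ ∞ (fun q : ℝ × ℝ => rpR γ q.1 q.2) := by
  unfold rpR
  have hA := KB.hz_smooth_A γ 1 2 hz.sγ
  have hB := KB.hz_smooth_B γ 1 2 hz.sγ
  have hC := KB.hz_smooth_C γ 1 2 hz.sγ
  have hrad : ContDiff ℝ ∞ (fun q : ℝ × ℝ =>
      KB.Bcoef γ 1 2 q.1 q.2 ^ 2 + KB.Acoef γ 1 2 q.1 q.2 * (1 - KB.Ccoef γ 1 2 q.1 q.2)) :=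
    (hB.pow 2).add (hA.mul (contDiff_const.sub hC))
  exact hrad.sqrt (fun q => (rpvs_rad_pos γ m0 M0 hz q.1 q.2).ne')

theorem rp_V_contDiff (γ ζ ν : ℝ → ℝ) (m0 M0 : ℝ) (hz : ZData γ m0 M0)
    (sζ : ContDiff ℝ ∞ ζ) (sν : ContDiff ℝ ∞ ν) :
    ContDiff ℝ ∞ (fun q : ℝ × ℝ => rpV γ ζ ν q.1 q.2) := by
  unfold rpV
  have hA := KB.hz_smooth_A γ 1 2 hz.sγ
  have hB := KB.hz_smooth_B γ 1 2 hz.sγ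
  have hR := rpvs_R_contDiff γ m0 M0 hz
  have hζ : ContDiff ℝ ∞ (fun q : ℝ × ℝ => ζ q.1) := sζ.comp contDiff_fst
  have hν : ContDiff ℝ ∞ (fun q : ℝ × ℝ => ν q.1) := sν.comp contDiff_fst
  have hnum : ContDiff ℝ ∞ (fun q : ℝ × ℝ =>
      ζ q.1 * (-KB.Bcoef γ 1 2 q.1 q.2 + (1 - ν q.1 ^ 2) * rpR γ q.1 q.2)) :=
    hζ.mul (hB.neg.add ((contDiff_const.sub (hν.pow 2)).mul hR))
  exact hnum.div hA (fun q => (rpvs_A_pos γ m0 M0 hz q.1 q.2).ne')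

end Vale.Agent.H55.RP
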